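import Crest.Agent.S0324Aux.Defs

/-! WP-A1 of rid 211 (helper18): area toolkit for `μHE[2]` on `E3`. -/

set_option autoImplicit false
open MeasureTheory
open scoped ENNReal

namespace Crest.Agent.S0324Aux

theorem gram2_nonneg (a b : E3) : 0 ≤ gram2 a b := by
  unfold gram2
  have h := abs_real_inner_le_norm a b
  have h2 : (inner ℝ a b) ^ 2 ≤ (‖a‖ * ‖b‖) ^ 2 := by
    rw [← sq_abs (inner ℝ a b)]
    exact pow_le_pow_left₀ (abs_nonneg _) h 2
  nlinarith [h2]

/-- the linear map `(x₀, x₁) ↦ x₀ a + x₁ b` -/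
noncomputable def A1.lin2 (a b : E3) : E2 →ₗ[ℝ] E3 where
  toFun x := x 0 • a + x 1 • b
  map_add' x y := by
    simp only [PiLp.add_apply, add_smul]; abel
  map_smul' c x := by
    simp only [PiLp.smul_apply, smul_eq_mul, RingHom.id_apply, smul_add, mul_smul]

@[simp] theorem A1.lin2_apply (a b : E3) (x : E2) : A1.lin2 a b x = x 0 • a + x 1 • b := rfl

theorem A1.normDet_lin2 (a b : E3) : (A1.lin2 a b).normDet = Real.sqrt (gram2 a b) := by
  have h := LinearMap.normDet_sq_eq_det_gram (𝕜 := ℝ) (A1.lin2 a b) (EuclideanSpace.basisFun (Fin 2) ℝ)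
  rw [Matrix.det_fin_two] at h
  simp [Matrix.gram] at h
  have h2 : gram2 a b = (A1.lin2 a b).normDet ^ 2 := by
    rw [h, gram2, real_inner_comm a b]; ring
  rw [h2, Real.sqrt_sq (LinearMap.normDet_nonneg _)]

/-- the unit square in `E2` -/
def A1.sq2 : Set E2 := {x | x 0 ∈ Set.Icc (0:ℝ) 1 ∧ x 1 ∈ Set.Icc (0:ℝ) 1}

/-- the standard triangle in `E2` -/
def A1.tri2 : Set E2 := {x | 0 ≤ x 0 ∧ 0 ≤ x 1 ∧ x 0 + x 1 ≤ 1}

theorem A1.volume_sq2 : volume A1.sq2 = 1 := by
  have h : A1.sq2 = (WithLp.ofLp : E2 → (Fin 2 → ℝ)) ⁻¹' (Set.Icc (0 : Fin 2 → ℝ) 1) := by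
    ext x
    simp [A1.sq2, Set.mem_Icc, Pi.le_def, Fin.forall_fin_two]
    tauto
  rw [h, (PiLp.volume_preserving_ofLp (Fin 2)).measure_preimage measurableSet_Icc.nullMeasurableSet,
    Real.volume_Icc_pi]
  simp


theorem A1.volume_triProd :
    volume {p : ℝ × ℝ | 0 ≤ p.1 ∧ 0 ≤ p.2 ∧ p.1 + p.2 ≤ 1} = ENNReal.ofReal (1 / 2) := by
  have hmeas : MeasurableSet {p : ℝ × ℝ | 0 ≤ p.1 ∧ 0 ≤ p.2 ∧ p.1 + p.2 ≤ 1} := by
    apply IsClosed.measurableSet
    apply IsClosed.inter (isClosed_le continuous_const continuous_fst)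
    apply IsClosed.inter (isClosed_le continuous_const continuous_snd)
    exact isClosed_le (continuous_fst.add continuous_snd) continuous_const
  rw [Measure.volume_eq_prod, Measure.prod_apply hmeas]
  have hslice : ∀ x : ℝ, volume (Prod.mk x ⁻¹' {p : ℝ × ℝ | 0 ≤ p.1 ∧ 0 ≤ p.2 ∧ p.1 + p.2 ≤ 1}) =
      (Set.Icc (0:ℝ) 1).indicator (fun x => ENNReal.ofReal (1 - x)) x := by
    intro x
    by_cases hx : x ∈ Set.Icc (0:ℝ) 1
    · rw [Set.indicator_of_mem hx]
      have : Prod.mk x ⁻¹' {p : ℝ × ℝ | 0 ≤ p.1 ∧ 0 ≤ p.2 ∧ p.1 + p.2 ≤ 1} = Set.Icc 0 (1 - x) := by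
        ext y
        simp only [Set.mem_preimage, Set.mem_ofPred_eq, Set.mem_Icc]
        constructor
        · rintro ⟨_, h2, h3⟩; exact ⟨h2, by linarith⟩
        · rintro ⟨h2, h3⟩; exact ⟨hx.1, h2, by linarith⟩
      rw [this, Real.volume_Icc]; simp
    · rw [Set.indicator_of_notMem hx]
      have : Prod.mk x ⁻¹' {p : ℝ × ℝ | 0 ≤ p.1 ∧ 0 ≤ p.2 ∧ p.1 + p.2 ≤ 1} = ∅ := by
        ext y
        simp only [Set.mem_preimage, Set.mem_ofPred_eq, Set.mem_empty_iff_false, iff_false]
        rintro ⟨h1, h2, h3⟩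
        exact hx ⟨h1, by linarith⟩
      rw [this]; simp
  simp_rw [hslice]
  rw [lintegral_indicator measurableSet_Icc,
    ← ofReal_integral_eq_lintegral_ofReal]
  · congr 1
    rw [integral_Icc_eq_integral_Ioc, ← intervalIntegral.integral_of_le zero_le_one]
    rw [intervalIntegral.integral_sub (by simp) (by simp)]
    simp
    norm_num
  · exact (Continuous.integrableOn_Icc (by fun_prop))
  · rw [Filter.EventuallyLE, ae_restrict_iff' measurableSet_Icc]
    exact Filter.Eventually.of_forall (fun x hx => by simpa using hx.2)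

theorem A1.volume_tri2 : volume A1.tri2 = ENNReal.ofReal (1 / 2) := by
  have h : A1.tri2 = (WithLp.ofLp : E2 → (Fin 2 → ℝ)) ⁻¹' (MeasurableEquiv.finTwoArrow ⁻¹'
      {p : ℝ × ℝ | 0 ≤ p.1 ∧ 0 ≤ p.2 ∧ p.1 + p.2 ≤ 1}) := by
    ext x
    simp [A1.tri2]
  have hmeas : MeasurableSet {p : ℝ × ℝ | 0 ≤ p.1 ∧ 0 ≤ p.2 ∧ p.1 + p.2 ≤ 1} := by
    apply IsClosed.measurableSet
    apply IsClosed.inter (isClosed_le continuous_const continuous_fst)
    apply IsClosed.inter (isClosed_le continuous_const continuous_snd)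
    exact isClosed_le (continuous_fst.add continuous_snd) continuous_const
  rw [h, (PiLp.volume_preserving_ofLp (Fin 2)).measure_preimage
      ((MeasurableEquiv.measurable _) hmeas).nullMeasurableSet,
    (volume_preserving_finTwoArrow ℝ).measure_preimage hmeas.nullMeasurableSet, A1.volume_triProd]


theorem A1.finrank_E2 : Module.finrank ℝ E2 = 2 := by simp

theorem A1.area_lin2_image (c a b : E3) (s : Set E2) :
    μHE[2] ((fun y => c + y) '' (A1.lin2 a b '' s)) =
      ENNReal.ofReal (Real.sqrt (gram2 a b)) * volume s := by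
  rw [(isometry_add_left c).euclideanHausdorffMeasure_image]
  have h := LinearMap.euclideanHausdorffMeasure_image_eq_normDet_mul_volume (A1.lin2 a b) s
  rw [A1.finrank_E2, A1.normDet_lin2] at h
  exact h

theorem A1.pgram_eq_image (c a b : E3) :
    pgram c a b = (fun y => c + y) '' (A1.lin2 a b '' A1.sq2) := by
  ext x
  simp only [pgram, Set.mem_ofPred_eq, Set.mem_image, A1.sq2, exists_exists_and_eq_and, A1.lin2_apply]
  constructor
  · rintro ⟨s, hs, t, ht, rfl⟩
    exact ⟨!₂[s, t], ⟨by simpa using hs, by simpa using ht⟩, by simp [add_assoc]⟩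
  · rintro ⟨y, ⟨h0, h1⟩, rfl⟩
    exact ⟨y 0, h0, y 1, h1, by simp [add_assoc]⟩

theorem area_pgram (c a b : E3) :
    μHE[2] (pgram c a b) = ENNReal.ofReal (Real.sqrt (gram2 a b)) := by
  rw [A1.pgram_eq_image, A1.area_lin2_image, A1.volume_sq2, mul_one]

theorem A1.convex_tri2 : Convex ℝ A1.tri2 := by
  intro x hx y hy a b ha hb hab
  obtain ⟨hx0, hx1, hx2⟩ := hx
  obtain ⟨hy0, hy1, hy2⟩ := hy
  refine ⟨?_, ?_, ?_⟩
  · simp only [PiLp.add_apply, PiLp.smul_apply, smul_eq_mul]; positivity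
  · simp only [PiLp.add_apply, PiLp.smul_apply, smul_eq_mul]; positivity
  · simp only [PiLp.add_apply, PiLp.smul_apply, smul_eq_mul]
    nlinarith

theorem A1.triangle_eq_image (p q r : E3) :
    convexHull ℝ ({p, q, r} : Set E3) = (fun y => p + y) '' (A1.lin2 (q - p) (r - p) '' A1.tri2) := by
  apply Set.Subset.antisymm
  · apply convexHull_min
    · intro x hx
      simp only [Set.mem_insert_iff, Set.mem_singleton_iff] at hx
      simp only [Set.mem_image, exists_exists_and_eq_and, A1.lin2_apply]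
      rcases hx with rfl | rfl | rfl
      · exact ⟨!₂[0, 0], ⟨by simp, by simp, by simp⟩, by simp⟩
      · exact ⟨!₂[1, 0], ⟨by simp, by simp, by simp⟩, by simp⟩
      · exact ⟨!₂[0, 1], ⟨by simp, by simp, by simp⟩, by simp⟩
    · exact ((A1.convex_tri2.linear_image _).translate p)
  · rintro _ ⟨_, ⟨y, ⟨h0, h1, h2⟩, rfl⟩, rfl⟩
    have hc := convex_convexHull ℝ ({p, q, r} : Set E3)
    have := hc.sum_mem (t := Finset.univ) (w := ![1 - y 0 - y 1, y 0, y 1]) (z := ![p, q, r])
      (by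
        intro i _
        fin_cases i
        · simp; linarith
        · simpa using h0
        · simpa using h1)
      (by simp only [Fin.sum_univ_three, Matrix.cons_val_zero, Matrix.cons_val_one, Matrix.cons_val_two, Matrix.head_cons, Matrix.tail_cons]; ring)
      (by
        intro i _
        apply subset_convexHull
        fin_cases i <;> simp)
    convert this using 1
    simp only [A1.lin2_apply, Fin.sum_univ_three, Matrix.cons_val_zero, Matrix.cons_val_one,
      Matrix.cons_val_two, Matrix.head_cons, Matrix.tail_cons, smul_sub, sub_smul, one_smul]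
    abel

theorem area_triangle (p q r : E3) :
    μHE[2] (convexHull ℝ ({p, q, r} : Set E3)) =
      ENNReal.ofReal (Real.sqrt (gram2 (q - p) (r - p)) / 2) := by
  rw [A1.triangle_eq_image, A1.area_lin2_image, A1.volume_tri2, ← ENNReal.ofReal_mul (Real.sqrt_nonneg _)]
  congr 1
  ring

/-- `μHE[2]` is a finite nonzero multiple of `μH[2]`. -/
theorem exists_muHE_eq_mul_muH :
    ∃ κ : ℝ, 0 < κ ∧ ∀ s : Set E3, μHE[2] s = ENNReal.ofReal κ * μH[(2 : ℝ)] s := by
  refine ⟨((Measure.addHaarScalarFactor (volume : Measure (EuclideanSpace ℝ (Fin 2)))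
    μH[((2 : ℕ) : ℝ)] : NNReal) : ℝ), ?_, ?_⟩
  · have := Measure.addHaarScalarFactor_volume_hausdorffMeasure_ne_zero 2
    exact_mod_cast pos_iff_ne_zero.mpr this
  · intro s
    rw [Measure.euclideanHausdorffMeasure_def, Measure.smul_apply, ENNReal.ofReal_coe_nnreal]
    simp only [Nat.cast_ofNat]
    rfl

theorem inner_projAlong (n y : E3) (hn : n ≠ 0) : inner ℝ (projAlong n y) n = 0 := by
  have h : ‖n‖ ^ 2 ≠ 0 := by
    have := norm_ne_zero_iff.mpr hn
    positivity
  unfold projAlong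
  rw [inner_sub_left, inner_smul_left, real_inner_self_eq_norm_sq]
  simp only [conj_trivial]
  field_simp
  ring

/-- bounded subsets of a plane through the origin have finite area -/
theorem area_lt_top_of_bounded_planar (u : E3) (hu : u ≠ 0) (s : Set E3)
    (hs : Bornology.IsBounded s) (hsu : ∀ x ∈ s, inner ℝ x u = 0) : μHE[2] s < ⊤ := by
  have : Fact (Module.finrank ℝ E3 = 2 + 1) := ⟨by simp⟩
  have hfr : Module.finrank ℝ (ℝ ∙ u)ᗮ = 2 := Submodule.finrank_orthogonal_span_singleton hu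
  set W : Submodule ℝ E3 := (ℝ ∙ u)ᗮ with hW
  have himg : s = (Subtype.val : W → E3) '' ((Subtype.val : W → E3) ⁻¹' s) := by
    rw [Set.image_preimage_eq_inter_range, Subtype.range_coe_subtype]
    symm
    apply Set.inter_eq_left.mpr
    intro x hx
    show x ∈ W
    rw [hW, Submodule.mem_orthogonal_singleton_iff_inner_left]
    exact hsu x hx
  rw [himg, isometry_subtype_coe.euclideanHausdorffMeasure_image, ← hfr,
    InnerProductSpace.euclideanHausdorffMeasure_eq_volume]
  apply Bornology.IsBounded.measure_lt_top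
  obtain ⟨R, hR⟩ := hs.subset_closedBall 0
  apply (Metric.isBounded_closedBall (x := (0 : W)) (r := R)).subset
  intro x hx
  have := hR hx
  simpa using this

/-- compact planar sets have relatively open bounded neighbourhoods of almost the same area -/
theorem exists_open_base (u : E3) (hu : u ≠ 0) (P : Set E3) (hP : IsCompact P)
    (hPu : ∀ x ∈ P, inner ℝ x u = 0) (η : ℝ) (hη : 0 < η) :
    ∃ O : Set E3, IsOpen O ∧ P ⊆ O ∧ Bornology.IsBounded (O ∩ {x | inner ℝ x u = 0}) ∧
      (μHE[2] (O ∩ {x | inner ℝ x u = 0})).toReal ≤ (μHE[2] P).toReal + η := by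
  set H : Set E3 := {x | inner ℝ x u = 0} with hH
  have hHm : MeasurableSet H := by
    apply IsClosed.measurableSet
    exact isClosed_eq (by fun_prop) continuous_const
  have hbdd : ∀ r : ℝ, Bornology.IsBounded (Metric.thickening r P ∩ H) := fun r =>
    (hP.isBounded.thickening).subset Set.inter_subset_left
  have hfin : ∀ r : ℝ, μHE[2] (Metric.thickening r P ∩ H) < ⊤ := fun r =>
    area_lt_top_of_bounded_planar u hu _ (hbdd r) (fun x hx => hx.2)
  have hPfin : μHE[2] P < ⊤ := area_lt_top_of_bounded_planar u hu P hP.isBounded hPu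
  have hPH : P ∩ H = P := Set.inter_eq_left.mpr hPu
  have ht := tendsto_measure_thickening_of_isClosed (μ := (μHE[2] : Measure E3).restrict H) (s := P)
    ⟨1, one_pos, by rw [Measure.restrict_apply Metric.isOpen_thickening.measurableSet]; exact (hfin 1).ne⟩
    hP.isClosed
  rw [Measure.restrict_apply hP.isClosed.measurableSet, hPH] at ht
  have hlt : μHE[2] P < μHE[2] P + ENNReal.ofReal η :=
    ENNReal.lt_add_right hPfin.ne (by simpa using hη)
  have hev := ht.eventually (gt_mem_nhds hlt)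
  have hev2 : ∀ᶠ r : ℝ in nhdsWithin 0 (Set.Ioi 0), 0 < r := eventually_mem_nhdsWithin
  obtain ⟨r, hr1, hr0⟩ := (hev.and hev2).exists
  rw [Measure.restrict_apply Metric.isOpen_thickening.measurableSet] at hr1
  refine ⟨Metric.thickening r P, Metric.isOpen_thickening, Metric.self_subset_thickening hr0 P,
    hbdd r, ?_⟩
  have := ENNReal.toReal_mono (ENNReal.add_ne_top.mpr ⟨hPfin.ne, ENNReal.ofReal_ne_top⟩) hr1.le
  rw [ENNReal.toReal_add hPfin.ne ENNReal.ofReal_ne_top, ENNReal.toReal_ofReal hη.le] at this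
  exact this

end Crest.Agent.S0324Aux
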