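import Crest.Agent.S0324Aux.Defs

/-! WP-A2 of the cylinder-covering results: Gram determinant identities and the covering of a
triangle by parallelogram strips. -/

set_option autoImplicit false
open MeasureTheory
open scoped ENNReal

namespace Crest.Agent.S0324Aux

/-! Auxiliary lemmas live in the sub-namespace `Crest.Agent.S0324Aux.A2` to avoid name clashes with
the other work packages. -/

theorem A2.inner_coord (a b : E3) : inner ℝ a b = a 0 * b 0 + a 1 * b 1 + a 2 * b 2 := by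
  simp [PiLp.inner_apply, Fin.sum_univ_three]
  ring

theorem A2.norm_sq_coord (a : E3) : ‖a‖ ^ 2 = a 0 ^ 2 + a 1 ^ 2 + a 2 ^ 2 := by
  rw [← real_inner_self_eq_norm_sq, A2.inner_coord]
  ring

theorem A2.gram2_coord (a b : E3) :
    gram2 a b = (a 0 ^ 2 + a 1 ^ 2 + a 2 ^ 2) * (b 0 ^ 2 + b 1 ^ 2 + b 2 ^ 2)
      - (a 0 * b 0 + a 1 * b 1 + a 2 * b 2) ^ 2 := by
  unfold gram2
  rw [A2.norm_sq_coord, A2.norm_sq_coord, A2.inner_coord]

/-- Gram determinant after projecting along a unit vector. -/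
theorem gram2_proj_unit (v a b : E3) (hv : ‖v‖ = 1) :
    gram2 (a - inner ℝ a v • v) (b - inner ℝ b v • v) =
      (v 0 * (a 1 * b 2 - a 2 * b 1) + v 1 * (a 2 * b 0 - a 0 * b 2)
        + v 2 * (a 0 * b 1 - a 1 * b 0)) ^ 2 := by
  have hv2 : v 0 ^ 2 + v 1 ^ 2 + v 2 ^ 2 = 1 := by
    rw [← A2.norm_sq_coord, hv]; norm_num
  rw [A2.gram2_coord, A2.inner_coord, A2.inner_coord]
  simp only [PiLp.sub_apply, PiLp.smul_apply, smul_eq_mul]
  linear_combination
    (-((a 0 ^ 2 + a 1 ^ 2 + a 2 ^ 2) * (b 0 ^ 2 + b 1 ^ 2 + b 2 ^ 2)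
        - (a 0 * b 0 + a 1 * b 1 + a 2 * b 2) ^ 2)
      + ((a 0 ^ 2 + a 1 ^ 2 + a 2 ^ 2) * (b 0 * v 0 + b 1 * v 1 + b 2 * v 2) ^ 2
        + (b 0 ^ 2 + b 1 ^ 2 + b 2 ^ 2) * (a 0 * v 0 + a 1 * v 1 + a 2 * v 2) ^ 2
        - 2 * (a 0 * b 0 + a 1 * b 1 + a 2 * b 2) * (a 0 * v 0 + a 1 * v 1 + a 2 * v 2)
          * (b 0 * v 0 + b 1 * v 1 + b 2 * v 2))) * hv2

/-- Gram determinant after projecting vectors of `e^⊥` along `e + w`, `w ⊥ e`. -/
theorem gram2_projAlong (e w a b : E3) (he : ‖e‖ = 1) (hw : inner ℝ w e = 0)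
    (ha : inner ℝ a e = 0) (hb : inner ℝ b e = 0) :
    gram2 (projAlong (e + w) a) (projAlong (e + w) b) = gram2 a b / (1 + ‖w‖ ^ 2) := by
  have he2 : e 0 ^ 2 + e 1 ^ 2 + e 2 ^ 2 = 1 := by
    rw [← A2.norm_sq_coord, he]; norm_num
  rw [A2.inner_coord] at hw ha hb
  set D : ℝ := w 0 * (a 1 * b 2 - a 2 * b 1) + w 1 * (a 2 * b 0 - a 0 * b 2)
        + w 2 * (a 0 * b 1 - a 1 * b 0) with hD
  have h0 : D * e 0 = 0 := by
    rw [hD]
    linear_combination (a 1 * b 2 - a 2 * b 1) * hw + (b 1 * w 2 - b 2 * w 1) * ha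
      + (w 1 * a 2 - w 2 * a 1) * hb
  have h1 : D * e 1 = 0 := by
    rw [hD]
    linear_combination (a 2 * b 0 - a 0 * b 2) * hw + (b 2 * w 0 - b 0 * w 2) * ha
      + (w 2 * a 0 - w 0 * a 2) * hb
  have h2 : D * e 2 = 0 := by
    rw [hD]
    linear_combination (a 0 * b 1 - a 1 * b 0) * hw + (b 0 * w 1 - b 1 * w 0) * ha
      + (w 0 * a 1 - w 1 * a 0) * hb
  have hD0 : D ^ 2 = 0 := by
    have : D ^ 2 = (D * e 0) ^ 2 + (D * e 1) ^ 2 + (D * e 2) ^ 2 := by
      linear_combination (-(D ^ 2)) * he2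
    rw [this, h0, h1, h2]; norm_num
  have hN : ‖e + w‖ ^ 2 = 1 + ‖w‖ ^ 2 := by
    rw [A2.norm_sq_coord, A2.norm_sq_coord]
    simp only [PiLp.add_apply]
    linear_combination he2 + 2 * hw
  have hNpos : (0 : ℝ) < 1 + ‖w‖ ^ 2 := by positivity
  unfold projAlong
  rw [hN]
  have hia : inner ℝ a (e + w) = a 0 * w 0 + a 1 * w 1 + a 2 * w 2 := by
    rw [A2.inner_coord]
    simp only [PiLp.add_apply]
    linear_combination ha
  have hib : inner ℝ b (e + w) = b 0 * w 0 + b 1 * w 1 + b 2 * w 2 := by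
    rw [A2.inner_coord]
    simp only [PiLp.add_apply]
    linear_combination hb
  rw [hia, hib]
  set N : ℝ := 1 + ‖w‖ ^ 2 with hNdef
  have hNw : N = 1 + (w 0 ^ 2 + w 1 ^ 2 + w 2 ^ 2) := by rw [hNdef, A2.norm_sq_coord]
  set x : ℝ := a 0 * w 0 + a 1 * w 1 + a 2 * w 2 with hx
  set y : ℝ := b 0 * w 0 + b 1 * w 1 + b 2 * w 2 with hy
  rw [A2.gram2_coord, A2.gram2_coord]
  simp only [PiLp.sub_apply, PiLp.smul_apply, PiLp.add_apply, smul_eq_mul]
  have hNne : N ≠ 0 := hNpos.ne'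
  have hnn : (e 0 + w 0) ^ 2 + (e 1 + w 1) ^ 2 + (e 2 + w 2) ^ 2 = N := by
    rw [hNw]; linear_combination he2 + 2 * hw
  have han : a 0 * (e 0 + w 0) + a 1 * (e 1 + w 1) + a 2 * (e 2 + w 2) = x := by
    rw [hx]; linear_combination ha
  have hbn : b 0 * (e 0 + w 0) + b 1 * (e 1 + w 1) + b 2 * (e 2 + w 2) = y := by
    rw [hy]; linear_combination hb
  have P1 : (a 0 - x / N * (e 0 + w 0)) ^ 2 + (a 1 - x / N * (e 1 + w 1)) ^ 2
      + (a 2 - x / N * (e 2 + w 2)) ^ 2 = (a 0 ^ 2 + a 1 ^ 2 + a 2 ^ 2) - x ^ 2 / N := by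
    have : x ^ 2 / N = 2 * (x / N) * x - (x / N) ^ 2 * N := by field_simp; ring
    rw [this]
    linear_combination (-2 * (x / N)) * han + (x / N) ^ 2 * hnn
  have P2 : (b 0 - y / N * (e 0 + w 0)) ^ 2 + (b 1 - y / N * (e 1 + w 1)) ^ 2
      + (b 2 - y / N * (e 2 + w 2)) ^ 2 = (b 0 ^ 2 + b 1 ^ 2 + b 2 ^ 2) - y ^ 2 / N := by
    have : y ^ 2 / N = 2 * (y / N) * y - (y / N) ^ 2 * N := by field_simp; ring
    rw [this]
    linear_combination (-2 * (y / N)) * hbn + (y / N) ^ 2 * hnn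
  have P3 : (a 0 - x / N * (e 0 + w 0)) * (b 0 - y / N * (e 0 + w 0))
      + (a 1 - x / N * (e 1 + w 1)) * (b 1 - y / N * (e 1 + w 1))
      + (a 2 - x / N * (e 2 + w 2)) * (b 2 - y / N * (e 2 + w 2))
      = (a 0 * b 0 + a 1 * b 1 + a 2 * b 2) - x * y / N := by
    have : x * y / N = (y / N) * x + (x / N) * y - (x / N) * (y / N) * N := by field_simp; ring
    rw [this]
    linear_combination (-(y / N)) * han + (-(x / N)) * hbn + (x / N) * (y / N) * hnn
  rw [P1, P2, P3]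
  have hDexp : D ^ 2 = (N - 1) * ((a 0 ^ 2 + a 1 ^ 2 + a 2 ^ 2) * (b 0 ^ 2 + b 1 ^ 2 + b 2 ^ 2)
      - (a 0 * b 0 + a 1 * b 1 + a 2 * b 2) ^ 2)
      - ((a 0 ^ 2 + a 1 ^ 2 + a 2 ^ 2) * y ^ 2 + (b 0 ^ 2 + b 1 ^ 2 + b 2 ^ 2) * x ^ 2
        - 2 * (a 0 * b 0 + a 1 * b 1 + a 2 * b 2) * x * y) := by
    rw [hNw, hD, hx, hy]; ring
  rw [hD0] at hDexp
  field_simp
  linear_combination (-N) * hDexp

/-- Barycentric description of a triangle. -/
theorem A2.mem_triangle_iff (p q r x : E3) :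
    x ∈ convexHull ℝ ({p, q, r} : Set E3) ↔
      ∃ s t : ℝ, 0 ≤ s ∧ 0 ≤ t ∧ s + t ≤ 1 ∧ x = p + s • (q - p) + t • (r - p) := by
  rw [convexHull_insert (Set.insert_nonempty _ _), convexHull_pair, convexJoin_singleton_left]
  simp only [Set.mem_iUnion, exists_prop]
  constructor
  · rintro ⟨y, ⟨a, b, ha, hb, hab, rfl⟩, ⟨c, d, hc, hd, hcd, rfl⟩⟩
    refine ⟨d * a, d * b, by positivity, by positivity, ?_, ?_⟩
    · have : d * a + d * b = d := by rw [← mul_add, hab, mul_one]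
      rw [this]; linarith
    · have hc' : c = 1 - d := by linarith
      have ha' : a = 1 - b := by linarith
      subst hc' ha'
      module
  · rintro ⟨s, t, hs, ht, hst, rfl⟩
    rcases eq_or_lt_of_le (add_nonneg hs ht) with h0 | hpos
    · have hs0 : s = 0 := by linarith
      have ht0 : t = 0 := by linarith
      subst hs0 ht0
      refine ⟨q, left_mem_segment _ _ _, ?_⟩
      simpa using left_mem_segment ℝ p q
    · refine ⟨(s / (s + t)) • q + (t / (s + t)) • r,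
        ⟨s / (s + t), t / (s + t), by positivity, by positivity, by field_simp, rfl⟩,
        ⟨1 - (s + t), s + t, by linarith, hpos.le, by ring, ?_⟩⟩
      have h1 : (s + t) * (s / (s + t)) = s := by field_simp
      have h2 : (s + t) * (t / (s + t)) = t := by field_simp
      rw [smul_add, smul_smul, smul_smul, h1, h2]
      module

theorem A2.gram2_smul_smul (α β : ℝ) (a b : E3) :
    gram2 (α • a) (β • b) = (α * β) ^ 2 * gram2 a b := by
  rw [A2.gram2_coord, A2.gram2_coord]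
  simp only [PiLp.smul_apply, smul_eq_mul]
  ring

theorem A2.sqrt_gram2_smul_smul (α β : ℝ) (hα : 0 ≤ α) (hβ : 0 ≤ β) (a b : E3) :
    Real.sqrt (gram2 (α • a) (β • b)) = α * β * Real.sqrt (gram2 a b) := by
  rw [A2.gram2_smul_smul, Real.sqrt_mul (sq_nonneg _), Real.sqrt_sq (mul_nonneg hα hβ)]

/-- a triangle is covered by `k` parallelograms of total area `(1 + 1/k)` times its area -/
theorem triangle_subset_pgrams (p q r : E3) (k : ℕ) (hk : 0 < k) :
    ∃ (c a b : Fin k → E3),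
      convexHull ℝ ({p, q, r} : Set E3) ⊆ ⋃ j, pgram (c j) (a j) (b j) ∧
      (∀ u : E3, inner ℝ p u = 0 → inner ℝ q u = 0 → inner ℝ r u = 0 →
        ∀ j, inner ℝ (c j) u = 0 ∧ inner ℝ (a j) u = 0 ∧ inner ℝ (b j) u = 0) ∧
      ∑ j, Real.sqrt (gram2 (a j) (b j)) =
        (1 + 1 / (k : ℝ)) * (Real.sqrt (gram2 (q - p) (r - p)) / 2) := by
  have hk0 : (0 : ℝ) < k := by exact_mod_cast hk
  refine ⟨fun j => p + ((j : ℕ) / (k : ℝ)) • (r - p), fun j => (1 - (j : ℕ) / (k : ℝ)) • (q - p),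
    fun _ => (1 / (k : ℝ)) • (r - p), ?_, ?_, ?_⟩
  · intro x hx
    rw [A2.mem_triangle_iff] at hx
    obtain ⟨s, t, hs, ht, hst, rfl⟩ := hx
    have hj0 : min ⌊t * k⌋₊ (k - 1) < k := lt_of_le_of_lt (min_le_right _ _) (by omega)
    set j0 : ℕ := min ⌊t * k⌋₊ (k - 1) with hj0def
    have hlow : (j0 : ℝ) ≤ t * k := by
      have h1 : (j0 : ℝ) ≤ (⌊t * k⌋₊ : ℝ) := by exact_mod_cast min_le_left _ _
      exact h1.trans (Nat.floor_le (by positivity))
    have hup : t * k ≤ (j0 : ℝ) + 1 := by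
      rcases le_total ⌊t * k⌋₊ (k - 1) with h | h
      · rw [hj0def, min_eq_left h]
        exact (Nat.lt_floor_add_one _).le
      · rw [hj0def, min_eq_right h]
        have : ((k - 1 : ℕ) : ℝ) + 1 = k := by
          have : k - 1 + 1 = k := by omega
          exact_mod_cast this
        rw [this]
        nlinarith
    have hjk : (j0 : ℝ) < k := by exact_mod_cast hj0
    have hd : 0 < 1 - (j0 : ℝ) / k := by
      rw [sub_pos, div_lt_one hk0]; exact hjk
    have hlow' : (j0 : ℝ) / k ≤ t := by rw [div_le_iff₀ hk0]; exact hlow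
    refine Set.mem_iUnion.2 ⟨⟨j0, hj0⟩, s / (1 - (j0 : ℝ) / k), ⟨by positivity, ?_⟩,
      t * k - j0, ⟨by linarith, by linarith⟩, ?_⟩
    · rw [div_le_one hd]; linarith
    · simp only
      rw [smul_smul, smul_smul]
      have h1 : s / (1 - (j0 : ℝ) / k) * (1 - (j0 : ℝ) / k) = s := div_mul_cancel₀ _ hd.ne'
      have h2 : (t * k - j0) * (1 / (k : ℝ)) = t - (j0 : ℝ) / k := by field_simp
      rw [h1, h2]
      module
  · intro u hp hq hr j
    simp only [inner_add_left, inner_smul_left, inner_sub_left, hp, hq, hr]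
    simp
  · have hterm : ∀ j : Fin k, Real.sqrt (gram2 ((1 - ((j : ℕ) : ℝ) / (k : ℝ)) • (q - p))
        ((1 / (k : ℝ)) • (r - p))) =
        (1 - ((j : ℕ) : ℝ) / (k : ℝ)) * (1 / (k : ℝ)) * Real.sqrt (gram2 (q - p) (r - p)) := by
      intro j
      apply A2.sqrt_gram2_smul_smul
      · have : ((j : ℕ) : ℝ) ≤ k := by exact_mod_cast j.2.le
        rw [sub_nonneg, div_le_one hk0]; exact this
      · positivity
    simp only [hterm]
    rw [← Finset.sum_mul, ← Finset.sum_mul]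
    have hsum : ∀ n : ℕ, ∑ j ∈ Finset.range n, (1 - (j : ℝ) / (k : ℝ))
        = n - (n : ℝ) * (n - 1) / (2 * k) := by
      intro n
      induction n with
      | zero => simp
      | succ n ih =>
        rw [Finset.sum_range_succ, ih]
        push_cast
        field_simp
        ring
    have := Fin.sum_univ_eq_sum_range (fun j : ℕ => (1 - (j : ℝ) / (k : ℝ))) k
    rw [this, hsum]
    field_simp
    ring

end Crest.Agent.S0324Aux
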