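import Crest.Agent.S0324Aux.CoverTile

/-! The explicit two-fan cover of the standard regular tetrahedron (`cover_core`). -/

set_option autoImplicit false

namespace Crest.Agent.S0324Aux

theorem Ktet_subset : Ktet ⊆ {X : E3 | |X 0| ≤ 1 - X 2 / Real.sqrt 2 ∧ |X 1| ≤ X 2 / Real.sqrt 2} := by
  have hs : (0 : ℝ) < Real.sqrt 2 := Real.sqrt_pos.mpr (by norm_num)
  unfold Ktet
  apply convexHull_min
  · intro X hX
    simp only [Set.mem_insert_iff, Set.mem_singleton_iff] at hX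
    rcases hX with rfl | rfl | rfl | rfl <;> simp [hs.ne']
  · intro X hX Y hY a b ha hb hab
    simp only [Set.mem_setOf_eq, abs_le] at hX hY ⊢
    obtain ⟨⟨hX1, hX2⟩, hX3, hX4⟩ := hX
    obtain ⟨⟨hY1, hY2⟩, hY3, hY4⟩ := hY
    simp only [PiLp.add_apply, PiLp.smul_apply, smul_eq_mul]
    have e : (a * X 2 + b * Y 2) / Real.sqrt 2 = a * (X 2 / Real.sqrt 2) + b * (Y 2 / Real.sqrt 2) := by
      ring
    rw [e]
    set p := X 2 / Real.sqrt 2
    set q := Y 2 / Real.sqrt 2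
    refine ⟨⟨?_, ?_⟩, ?_, ?_⟩ <;> nlinarith

/-- base point of the frame (`false`: lower fan, `true`: upper fan) -/
noncomputable def fo (b : Bool) : E3 := if b then !₂[0, 0, Real.sqrt 2] else 0
noncomputable def fe (b : Bool) : E3 := if b then !₂[0, 1, 0] else !₂[1, 0, 0]
noncomputable def ff₁ (b : Bool) : E3 := if b then !₂[-1, 0, 0] else !₂[0, 1, 0]
noncomputable def ff₂ (b : Bool) : E3 := if b then !₂[0, 0, -1] else !₂[0, 0, 1]

theorem fe_norm (b : Bool) : ‖fe b‖ = 1 := by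
  cases b <;> simp [fe, EuclideanSpace.norm_eq, Fin.sum_univ_three]
theorem ff₁_norm (b : Bool) : ‖ff₁ b‖ = 1 := by
  cases b <;> simp [ff₁, EuclideanSpace.norm_eq, Fin.sum_univ_three]
theorem ff₂_norm (b : Bool) : ‖ff₂ b‖ = 1 := by
  cases b <;> simp [ff₂, EuclideanSpace.norm_eq, Fin.sum_univ_three]
theorem fe_ff₁ (b : Bool) : inner ℝ (fe b) (ff₁ b) = 0 := by
  cases b <;> simp [fe, ff₁, PiLp.inner_apply, Fin.sum_univ_three]
theorem fe_ff₂ (b : Bool) : inner ℝ (fe b) (ff₂ b) = 0 := by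
  cases b <;> simp [fe, ff₂, PiLp.inner_apply, Fin.sum_univ_three]
theorem ff₁_ff₂ (b : Bool) : inner ℝ (ff₁ b) (ff₂ b) = 0 := by
  cases b <;> simp [ff₁, ff₂, PiLp.inner_apply, Fin.sum_univ_three]

theorem lower_coord (X : E3) :
    X = fo false + (X 0) • fe false + (X 1) • ff₁ false +
      (Real.sqrt 2 * (X 2 / Real.sqrt 2)) • ff₂ false := by
  have hs : Real.sqrt 2 ≠ 0 := (Real.sqrt_pos.mpr (by norm_num)).ne'
  ext i
  fin_cases i <;> simp [fo, fe, ff₁, ff₂]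
  field_simp

theorem upper_coord (X : E3) :
    X = fo true + (X 1) • fe true + (-(X 0)) • ff₁ true +
      (Real.sqrt 2 * (1 - X 2 / Real.sqrt 2)) • ff₂ true := by
  have hs : Real.sqrt 2 ≠ 0 := (Real.sqrt_pos.mpr (by norm_num)).ne'
  ext i
  fin_cases i <;> simp [fo, fe, ff₁, ff₂]
  field_simp
  ring

theorem cover_general (ε : ℝ) (N : ℕ) (hε : 0 < ε) (hε1 : ε ≤ 1 / 10) (hN : 2 ≤ N) (S : ℝ)
    (hS : ∑ i ∈ Finset.range N,
      (Rf ε (2 / N) (cT N i)) ^ 2 * (2 / (N : ℝ)) / (2 * Real.sqrt (1 + XT ε (2 / N) (cT N i))) ≤ S) :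
    ∃ (u p q r : Bool × Fin N → E3), (∀ i, ‖u i‖ = 1) ∧
      (∀ i, inner ℝ (p i) (u i) = 0 ∧ inner ℝ (q i) (u i) = 0 ∧ inner ℝ (r i) (u i) = 0) ∧
      Ktet ⊆ ⋃ i, {x : E3 | ∃ b ∈ convexHull ℝ {p i, q i, r i}, ∃ t : ℝ, x = b + t • u i} ∧
      ∑ i, Real.sqrt (gram2 (q i - p i) (r i - p i)) / 2 ≤ Real.sqrt 2 * (2 * S) := by
  have hN0 : 0 < N := by omega
  have hNr : (0 : ℝ) < N := by exact_mod_cast hN0
  have hN2 : (2 : ℝ) ≤ N := by exact_mod_cast hN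
  set δ : ℝ := 2 / (N : ℝ) with hδdef
  have hδ : 0 < δ := by positivity
  have hδ1 : δ ≤ 1 := by
    rw [hδdef, div_le_one hNr]; exact hN2
  set n : Bool × Fin N → E3 := fun k => nT (fe k.1) (ff₁ k.1) (ff₂ k.1) ε δ (cT N k.2) with hn
  have hn0 : ∀ k, n k ≠ 0 := fun k =>
    nT_ne_zero _ _ _ (fe_norm k.1) (ff₁_norm k.1) (ff₂_norm k.1) (fe_ff₁ k.1) (fe_ff₂ k.1)
      (ff₁_ff₂ k.1) ε δ _
  have hRpos : ∀ c, 0 < Rf ε δ c := by
    intro c
    unfold Rf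
    positivity
  refine ⟨fun k => (1 / ‖n k‖) • n k, fun k => projAlong (n k) (fo k.1),
    fun k => projAlong (n k) (fo k.1 + tileVA (ff₁ k.1) (ff₂ k.1) δ (cT N k.2) (Rf ε δ (cT N k.2))),
    fun k => projAlong (n k) (fo k.1 + tileVB (ff₁ k.1) (ff₂ k.1) δ (cT N k.2) (Rf ε δ (cT N k.2))),
    ?_, ?_, ?_, ?_⟩
  · intro k
    have : ‖n k‖ ≠ 0 := norm_ne_zero_iff.mpr (hn0 k)
    rw [norm_smul, norm_div, norm_one, norm_norm]
    field_simp
  · intro k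
    simp only [inner_smul_right, inner_projAlong _ _ (hn0 k), mul_zero, and_self]
  · intro X hX
    obtain ⟨hx, hy⟩ := Ktet_subset hX
    set x := X 0
    set y := X 1
    set Z := X 2 / Real.sqrt 2
    obtain ⟨i, hi, hwi⟩ := wedge_exists ε x y Z N hN0 hy
    obtain ⟨j, hj, hwj⟩ := wedge_exists ε y (-x) (1 - Z) N hN0 (by rw [abs_neg]; exact hx)
    rw [Set.mem_iUnion]
    rcases key_cover ε δ (cT N i) (cT N j) x y Z hε hε1 hδ hδ1 (abs_cT_le N i hi) (abs_cT_le N j hj)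
      hwi hwj with h | h
    · refine ⟨(false, ⟨i, hi⟩), ?_⟩
      have := tile_mem (fe false) (ff₁ false) (ff₂ false) (fe_norm _) (ff₁_norm _) (ff₂_norm _)
        (fe_ff₁ _) (fe_ff₂ _) (ff₁_ff₂ _) (fo false) ε δ (cT N i) (Rf ε δ (cT N i)) x y Z hδ
        (hRpos _) hwi h
      rw [← lower_coord X] at this
      exact this
    · refine ⟨(true, ⟨j, hj⟩), ?_⟩
      have := tile_mem (fe true) (ff₁ true) (ff₂ true) (fe_norm _) (ff₁_norm _) (ff₂_norm _)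
        (fe_ff₁ _) (fe_ff₂ _) (ff₁_ff₂ _) (fo true) ε δ (cT N j) (Rf ε δ (cT N j)) y (-x) (1 - Z) hδ
        (hRpos _) hwj h
      rw [← upper_coord X] at this
      exact this
  · have hterm : ∀ k : Bool × Fin N,
        Real.sqrt (gram2
          (projAlong (n k) (fo k.1 + tileVA (ff₁ k.1) (ff₂ k.1) δ (cT N k.2) (Rf ε δ (cT N k.2))) -
            projAlong (n k) (fo k.1))
          (projAlong (n k) (fo k.1 + tileVB (ff₁ k.1) (ff₂ k.1) δ (cT N k.2) (Rf ε δ (cT N k.2))) -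
            projAlong (n k) (fo k.1))) / 2 =
        Real.sqrt 2 * ((Rf ε δ (cT N k.2)) ^ 2 * δ / (2 * Real.sqrt (1 + XT ε δ (cT N k.2)))) :=
      fun k => tile_area _ _ _ (fe_norm k.1) (ff₁_norm k.1) (ff₂_norm k.1) (fe_ff₁ k.1) (fe_ff₂ k.1)
        (ff₁_ff₂ k.1) _ ε δ _ _ hδ.le
    rw [Finset.sum_congr rfl (fun k _ => hterm k), ← Finset.mul_sum]
    apply mul_le_mul_of_nonneg_left _ (Real.sqrt_nonneg 2)
    rw [Fintype.sum_prod_type]
    simp only [Fintype.sum_bool]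
    rw [Fin.sum_univ_eq_sum_range
      (fun i => (Rf ε δ (cT N i)) ^ 2 * δ / (2 * Real.sqrt (1 + XT ε δ (cT N i)))) N]
    linarith

/-- reindexing a finite family by `Fin m` -/
theorem cover_core :
    ∃ (m : ℕ) (u p q r : Fin m → E3), m ≤ 8000000 ∧ (∀ i, ‖u i‖ = 1) ∧
      (∀ i, inner ℝ (p i) (u i) = 0 ∧ inner ℝ (q i) (u i) = 0 ∧ inner ℝ (r i) (u i) = 0) ∧
      Ktet ⊆ ⋃ i, {x : E3 | ∃ b ∈ convexHull ℝ {p i, q i, r i}, ∃ t : ℝ, x = b + t • u i} ∧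
      ∑ i, Real.sqrt (gram2 (q i - p i) (r i - p i)) / 2 ≤ Real.sqrt 2 * (1 / 2 - 1 / 10 ^ 9) := by
  obtain ⟨N, hN⟩ : ∃ N : ℕ, N = 1000000 := ⟨_, rfl⟩
  obtain ⟨u, p, q, r, h1, h2, h3, h4⟩ := cover_general (1 / 1000) N (by norm_num) (by norm_num)
    (by omega) (1 / 4 - 1 / (2 * 10 ^ 9)) (fan_sum_numeric N hN)
  let σ := Fintype.equivFin (Bool × Fin N)
  refine ⟨Fintype.card (Bool × Fin N), u ∘ σ.symm, p ∘ σ.symm, q ∘ σ.symm, r ∘ σ.symm,
    ?_, fun i => h1 _, fun i => h2 _, ?_, ?_⟩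
  · rw [Fintype.card_prod, Fintype.card_bool, Fintype.card_fin]
    omega
  · intro X hX
    obtain ⟨k, hk⟩ := Set.mem_iUnion.mp (h3 hX)
    refine Set.mem_iUnion.mpr ⟨σ k, ?_⟩
    simpa using hk
  · have : ∑ i, Real.sqrt (gram2 ((q ∘ σ.symm) i - (p ∘ σ.symm) i)
        ((r ∘ σ.symm) i - (p ∘ σ.symm) i)) / 2 =
        ∑ k, Real.sqrt (gram2 (q k - p k) (r k - p k)) / 2 :=
      Equiv.sum_comp σ.symm (fun k => Real.sqrt (gram2 (q k - p k) (r k - p k)) / 2)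
    rw [this]
    refine h4.trans (le_of_eq ?_)
    ring

end Crest.Agent.S0324Aux
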