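import Crest.Agent.S0324Aux.Area
import Crest.Agent.S0324Aux.Area2

/-! WP-C: projections of the standard tetrahedron have area at least `√2`. -/

set_option autoImplicit false
open MeasureTheory
open scoped ENNReal

namespace Crest.Agent.S0324Aux

/-- the `3 × 3` determinant with rows `v, a, b`. -/
def det3 (v a b : E3) : ℝ :=
  v 0 * (a 1 * b 2 - a 2 * b 1) + v 1 * (a 2 * b 0 - a 0 * b 2) + v 2 * (a 0 * b 1 - a 1 * b 0)

/-- orthogonal projection along the unit vector `v`, as a linear map. -/
noncomputable def projL (v : E3) : E3 →ₗ[ℝ] E3 where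
  toFun y := y - inner ℝ y v • v
  map_add' x y := by
    simp only [inner_add_left, add_smul]; abel
  map_smul' c x := by
    simp only [inner_smul_left, RingHom.id_apply, smul_sub, smul_smul]
    simp

theorem projL_apply (v y : E3) : projL v y = y - inner ℝ y v • v := rfl

theorem projL_coe (v : E3) : (projL v : E3 → E3) = fun y => y - inner ℝ y v • v := rfl

theorem det3_projL (v a x : E3) : det3 v a (projL v x) = det3 v a x := by
  simp only [det3, projL_apply, PiLp.sub_apply, PiLp.smul_apply, smul_eq_mul]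
  ring

theorem det3_add_smul (v a x y : E3) (s t : ℝ) :
    det3 v a (s • x + t • y) = s * det3 v a x + t * det3 v a y := by
  simp only [det3, PiLp.add_apply, PiLp.smul_apply, smul_eq_mul]
  ring

theorem det3_sub (v a x y : E3) : det3 v a (x - y) = det3 v a x - det3 v a y := by
  simp only [det3, PiLp.sub_apply]
  ring

theorem det3_self (v a : E3) : det3 v a a = 0 := by
  simp only [det3]
  ring

/-- area of a projected triangle -/
theorem area_proj_triangle (v : E3) (hv : ‖v‖ = 1) (P Q R : E3) :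
    μHE[2] (convexHull ℝ ({projL v P, projL v Q, projL v R} : Set E3)) =
      ENNReal.ofReal (|det3 v (Q - P) (R - P)| / 2) := by
  rw [area_triangle, ← map_sub, ← map_sub, projL_apply, projL_apply, gram2_proj_unit v _ _ hv,
    Real.sqrt_sq_eq_abs]
  rfl

theorem triangle_subset_image (v : E3) (S : Set E3) (P Q R : E3) (hP : P ∈ S) (hQ : Q ∈ S)
    (hR : R ∈ S) :
    convexHull ℝ ({projL v P, projL v Q, projL v R} : Set E3) ⊆ projL v '' convexHull ℝ S := by
  rw [LinearMap.image_convexHull]
  apply convexHull_mono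
  intro x hx
  simp only [Set.mem_insert_iff, Set.mem_singleton_iff] at hx
  rcases hx with rfl | rfl | rfl
  · exact ⟨P, hP, rfl⟩
  · exact ⟨Q, hQ, rfl⟩
  · exact ⟨R, hR, rfl⟩

theorem measurableSet_triangle (p q r : E3) :
    MeasurableSet (convexHull ℝ ({p, q, r} : Set E3)) := by
  have hfin : ({p, q, r} : Set E3).Finite := by simp
  exact (hfin.isCompact_convexHull ℝ).isClosed.measurableSet

/-- points of the triangle `C A B`: the functional `g` with `g A = g B = k`. -/
theorem triangle_functional (g : E3 → ℝ)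
    (hg : ∀ (x y : E3) (s t : ℝ), g (s • x + t • y) = s * g x + t * g y)
    (A B C : E3) (k : ℝ) (hA : g A = k) (hB : g B = k) (x : E3)
    (hx : x ∈ convexHull ℝ ({C, A, B} : Set E3)) :
    ∃ a : ℝ, 0 ≤ a ∧ g x - k = a * (g C - k) ∧ (a = 0 → x ∈ segment ℝ A B) := by
  rw [convexHull_insert (by simp), convexHull_pair, mem_convexJoin] at hx
  obtain ⟨c, hc, y, hy, hxy⟩ := hx
  simp only [Set.mem_singleton_iff] at hc
  subst hc
  obtain ⟨a, b, ha, hb, hab, rfl⟩ := hxy
  have hyk : g y = k := by
    obtain ⟨a', b', ha', hb', hab', rfl⟩ := hy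
    rw [hg, hA, hB, ← add_mul, hab', one_mul]
  refine ⟨a, ha, ?_, ?_⟩
  · rw [hg, hyk]
    have : b = 1 - a := by linarith
    subst this
    ring
  · intro ha0
    have : b = 1 := by linarith
    subst this
    subst ha0
    simpa using hy

theorem area_segment (A B : E3) : μHE[2] (segment ℝ A B) = 0 := by
  have h : segment ℝ A B = convexHull ℝ ({A, B, B} : Set E3) := by
    rw [← convexHull_pair]
    congr 1
    simp
  rw [h, area_triangle]
  have : gram2 (B - A) (B - A) = 0 := by
    simp only [gram2, real_inner_self_eq_norm_sq]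
    ring
  rw [this]
  simp

/-- Two projected triangles sharing an edge: the area of any set containing both is at least half
of the determinant of the two "diagonals". -/
theorem area_two_triangles (v : E3) (hv : ‖v‖ = 1) (A B C D : E3) (T : Set E3)
    (h1 : convexHull ℝ ({projL v C, projL v A, projL v B} : Set E3) ⊆ T)
    (h2 : convexHull ℝ ({projL v D, projL v A, projL v B} : Set E3) ⊆ T) :
    ENNReal.ofReal (|det3 v (B - A) (C - D)| / 2) ≤ μHE[2] T := by
  set lC : ℝ := det3 v (B - A) (C - A) with hlC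
  set lD : ℝ := det3 v (B - A) (D - A) with hlD
  have hdiff : det3 v (B - A) (C - D) = lC - lD := by
    simp only [hlC, hlD, det3_sub]; ring
  have a1 : μHE[2] (convexHull ℝ ({projL v C, projL v A, projL v B} : Set E3)) =
      ENNReal.ofReal (|lC| / 2) := by
    rw [area_proj_triangle v hv]
    congr 2
    have : det3 v (A - C) (B - C) = lC := by
      simp only [hlC, det3, PiLp.sub_apply]; ring
    rw [this]
  have a2 : μHE[2] (convexHull ℝ ({projL v D, projL v A, projL v B} : Set E3)) =
      ENNReal.ofReal (|lD| / 2) := by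
    rw [area_proj_triangle v hv]
    congr 2
    have : det3 v (A - D) (B - D) = lD := by
      simp only [hlD, det3, PiLp.sub_apply]; ring
    rw [this]
  rw [hdiff]
  by_cases hsign : 0 ≤ lC * lD
  · -- same side: one of the triangles is enough
    have hmax : |lC - lD| ≤ max |lC| |lD| := by
      rcases le_total 0 lC with hC | hC <;> rcases le_total 0 lD with hD | hD
      · rw [abs_of_nonneg hC, abs_of_nonneg hD]
        rcases le_total lC lD with h | h
        · rw [abs_of_nonpos (by linarith)]; exact le_max_of_le_right (by linarith)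
        · rw [abs_of_nonneg (by linarith)]; exact le_max_of_le_left (by linarith)
      · -- lC ≥ 0, lD ≤ 0, product ≥ 0, so one vanishes
        have h0 : lC * lD = 0 := le_antisymm (mul_nonpos_of_nonneg_of_nonpos hC hD) hsign
        rcases mul_eq_zero.mp h0 with h | h
        · rw [h]; simp
        · rw [h]; simp
      · have h0 : lC * lD = 0 := le_antisymm (mul_nonpos_of_nonpos_of_nonneg hC hD) hsign
        rcases mul_eq_zero.mp h0 with h | h
        · rw [h]; simp
        · rw [h]; simp
      · rw [abs_of_nonpos hC, abs_of_nonpos hD]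
        rcases le_total lC lD with h | h
        · rw [abs_of_nonpos (by linarith)]; exact le_max_of_le_left (by linarith)
        · rw [abs_of_nonneg (by linarith)]; exact le_max_of_le_right (by linarith)
    rcases le_total |lC| |lD| with h | h
    · rw [max_eq_right h] at hmax
      calc ENNReal.ofReal (|lC - lD| / 2) ≤ ENNReal.ofReal (|lD| / 2) :=
            ENNReal.ofReal_le_ofReal (by linarith)
        _ = _ := a2.symm
        _ ≤ _ := measure_mono h2
    · rw [max_eq_left h] at hmax
      calc ENNReal.ofReal (|lC - lD| / 2) ≤ ENNReal.ofReal (|lC| / 2) :=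
            ENNReal.ofReal_le_ofReal (by linarith)
        _ = _ := a1.symm
        _ ≤ _ := measure_mono h1
  · -- opposite sides: the triangles overlap in a null set
    push Not at hsign
    have hC0 : lC ≠ 0 := by rintro h; rw [h] at hsign; simp at hsign
    set g : E3 → ℝ := fun x => det3 v (B - A) x with hg
    have hglin : ∀ (x y : E3) (s t : ℝ), g (s • x + t • y) = s * g x + t * g y :=
      fun x y s t => det3_add_smul v (B - A) x y s t
    set k : ℝ := g A with hk
    have gA : g (projL v A) = k := det3_projL v _ _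
    have gB : g (projL v B) = k := by
      have h1 : g (projL v B) = g B := det3_projL v _ _
      have h2 : g B - g A = 0 := by
        have := det3_sub v (B - A) B A
        rw [det3_self] at this
        simp only [hg]; linarith
      rw [h1, hk]; linarith
    have gC : g (projL v C) - k = lC := by
      have h1 : g (projL v C) = g C := det3_projL v _ _
      rw [h1, hk, hlC, det3_sub]
    have gD : g (projL v D) - k = lD := by
      have h1 : g (projL v D) = g D := det3_projL v _ _
      rw [h1, hk, hlD, det3_sub]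
    have hdisj : AEDisjoint μHE[2] (convexHull ℝ ({projL v C, projL v A, projL v B} : Set E3))
        (convexHull ℝ ({projL v D, projL v A, projL v B} : Set E3)) := by
      apply measure_mono_null _ (area_segment (projL v A) (projL v B))
      rintro x ⟨hx1, hx2⟩
      obtain ⟨a, ha, hax, hseg⟩ := triangle_functional g hglin _ _ _ k gA gB x hx1
      obtain ⟨a', ha', hax', -⟩ := triangle_functional g hglin _ _ _ k gA gB x hx2
      apply hseg
      rw [gC] at hax
      rw [gD] at hax'
      by_contra hne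
      have hapos : 0 < a := lt_of_le_of_ne ha (Ne.symm hne)
      -- (a lC) * (a' lD) = (g x - k)^2 ≥ 0 but a lC ≠ 0
      have hsq : 0 ≤ (a * lC) * (a' * lD) := by
        rw [← hax, ← hax']; exact mul_self_nonneg _
      have h3 : (a * lC) * (a' * lD) = (a * a') * (lC * lD) := by ring
      rw [h3] at hsq
      have ha'0 : a' = 0 := by
        by_contra hne'
        have : 0 < a' := lt_of_le_of_ne ha' (Ne.symm hne')
        have : (a * a') * (lC * lD) < 0 := mul_neg_of_pos_of_neg (mul_pos hapos this) hsign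
        linarith
      rw [ha'0, zero_mul] at hax'
      rw [hax'] at hax
      have : a * lC ≠ 0 := mul_ne_zero hne hC0
      exact this hax.symm
    have hsum : |lC - lD| = |lC| + |lD| := by
      rcases lt_or_gt_of_ne hC0 with hC | hC
      · have hD : 0 < lD := by
          by_contra h
          push Not at h
          have := mul_nonneg_of_nonpos_of_nonpos hC.le h
          linarith
        rw [abs_of_neg hC, abs_of_pos hD, abs_of_neg (by linarith)]; ring
      · have hD : lD < 0 := by
          by_contra h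
          push Not at h
          have := mul_nonneg hC.le h
          linarith
        rw [abs_of_pos hC, abs_of_neg hD, abs_of_pos (by linarith)]; ring
    calc ENNReal.ofReal (|lC - lD| / 2) = ENNReal.ofReal (|lC| / 2) + ENNReal.ofReal (|lD| / 2) := by
          rw [hsum, add_div, ENNReal.ofReal_add (by positivity) (by positivity)]
      _ = μHE[2] (convexHull ℝ ({projL v C, projL v A, projL v B} : Set E3) ∪
            convexHull ℝ ({projL v D, projL v A, projL v B} : Set E3)) := by
          rw [measure_union₀ (measurableSet_triangle _ _ _).nullMeasurableSet hdisj, a1, a2]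
      _ ≤ _ := measure_mono (Set.union_subset h1 h2)


theorem key_ineq_aux (X Y ζ : ℝ) (hX : 0 ≤ X) (hY : 0 ≤ Y) (hζ : 0 ≤ ζ) (hXY : X + Y < 1)
    (hXζ : X + ζ < 1) (hhalf : 1 / 2 < X) : X ^ 2 + Y ^ 2 + 2 * ζ ^ 2 < 1 := by
  have h1 : Y ^ 2 < (1 - X) ^ 2 := by
    apply pow_lt_pow_left₀ (by linarith) hY (by norm_num)
  have h2 : ζ ^ 2 < (1 - X) ^ 2 := by
    apply pow_lt_pow_left₀ (by linarith) hζ (by norm_num)
  have h3 : (2 * X - 1) * (X - 1) ≤ 0 :=
    mul_nonpos_of_nonneg_of_nonpos (by linarith) (by linarith)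
  nlinarith

theorem key_ineq (x y z s : ℝ) (hs : s ^ 2 = 2) (hs0 : 0 < s) (h : x ^ 2 + y ^ 2 + z ^ 2 = 1)
    (h1 : 2 * |z| < s) (h2 : s * |x + y| < s) (h3 : s * |x - y| < s)
    (h4 : |s * y - z| < s) (h5 : |s * y + z| < s) (h6 : |s * x + z| < s) (h7 : |s * x - z| < s) :
    False := by
  have h2' : |x + y| < 1 := by
    by_contra hh
    push Not at hh
    nlinarith
  have h3' : |x - y| < 1 := by
    by_contra hh
    push Not at hh
    nlinarith
  rw [abs_lt] at h2' h3' h4 h5 h6 h7
  have hXY : |x| + |y| < 1 := by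
    rcases abs_cases x with ⟨e1, _⟩ | ⟨e1, _⟩ <;> rcases abs_cases y with ⟨e2, _⟩ | ⟨e2, _⟩ <;>
      rw [e1, e2] <;> linarith [h2'.1, h2'.2, h3'.1, h3'.2]
  have hYZ : s * |y| + |z| < s := by
    rcases abs_cases y with ⟨e1, _⟩ | ⟨e1, _⟩ <;> rcases abs_cases z with ⟨e2, _⟩ | ⟨e2, _⟩ <;>
      rw [e1, e2] <;> linarith [h4.1, h4.2, h5.1, h5.2]
  have hXZ : s * |x| + |z| < s := by
    rcases abs_cases x with ⟨e1, _⟩ | ⟨e1, _⟩ <;> rcases abs_cases z with ⟨e2, _⟩ | ⟨e2, _⟩ <;>
      rw [e1, e2] <;> linarith [h6.1, h6.2, h7.1, h7.2]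
  obtain ⟨ζ, hζ⟩ : ∃ ζ : ℝ, |z| = s * ζ := ⟨|z| / s, by field_simp⟩
  have hζ0 : 0 ≤ ζ := by
    have : 0 ≤ s * ζ := hζ ▸ abs_nonneg z
    exact nonneg_of_mul_nonneg_right this hs0
  have hX0 := abs_nonneg x
  have hY0 := abs_nonneg y
  rw [hζ] at h1 hYZ hXZ
  have hζh : ζ < 1 / 2 := by
    by_contra hh
    push Not at hh
    nlinarith
  have hYζ : |y| + ζ < 1 := by
    by_contra hh
    push Not at hh
    nlinarith
  have hXζ : |x| + ζ < 1 := by
    by_contra hh
    push Not at hh
    nlinarith
  have hsum : |x| ^ 2 + |y| ^ 2 + 2 * ζ ^ 2 = 1 := by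
    have hz2 : z ^ 2 = 2 * ζ ^ 2 := by
      rw [← sq_abs z, hζ, mul_pow, hs]
    rw [sq_abs, sq_abs, ← hz2]
    exact h
  rcases lt_or_ge (1 / 2) |x| with hx | hx
  · have := key_ineq_aux |x| |y| ζ hX0 hY0 hζ0 hXY hXζ hx
    linarith
  · rcases lt_or_ge (1 / 2) |y| with hy | hy
    · have := key_ineq_aux |y| |x| ζ hY0 hX0 hζ0 (by linarith) hYζ hy
      linarith
    · have e1 : |x| ^ 2 ≤ (1 / 2) ^ 2 := pow_le_pow_left₀ hX0 hx 2
      have e2 : |y| ^ 2 ≤ (1 / 2) ^ 2 := pow_le_pow_left₀ hY0 hy 2
      have e3 : ζ ^ 2 < (1 / 2) ^ 2 := pow_lt_pow_left₀ hζh hζ0 (by norm_num)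
      linarith

/-- the four vertices -/
noncomputable def vA : E3 := !₂[1, 0, 0]
noncomputable def vB : E3 := !₂[-1, 0, 0]
noncomputable def vC : E3 := !₂[0, 1, Real.sqrt 2]
noncomputable def vD : E3 := !₂[0, -1, Real.sqrt 2]

theorem Ktet_eq : Ktet = convexHull ℝ ({vA, vB, vC, vD} : Set E3) := rfl

theorem norm_sq_eq (v : E3) : ‖v‖ ^ 2 = v 0 ^ 2 + v 1 ^ 2 + v 2 ^ 2 := by
  rw [EuclideanSpace.norm_sq_eq, Fin.sum_univ_three]
  simp

theorem proj_area_ge (v : E3) (hv : ‖v‖ = 1) :
    ENNReal.ofReal (Real.sqrt 2) ≤ μHE[2] ((fun y => y - inner ℝ y v • v) '' Ktet) := by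
  rw [← projL_coe, Ktet_eq]
  set S : Set E3 := {vA, vB, vC, vD} with hS
  set T : Set E3 := projL v '' convexHull ℝ S with hT
  have mA : vA ∈ S := by simp [hS]
  have mB : vB ∈ S := by simp [hS]
  have mC : vC ∈ S := by simp [hS]
  have mD : vD ∈ S := by simp [hS]
  have tri : ∀ P Q R : E3, P ∈ S → Q ∈ S → R ∈ S →
      convexHull ℝ ({projL v P, projL v Q, projL v R} : Set E3) ⊆ T :=
    fun P Q R hP hQ hR => triangle_subset_image v S P Q R hP hQ hR
  have face : ∀ P Q R : E3, P ∈ S → Q ∈ S → R ∈ S →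
      ENNReal.ofReal (|det3 v (Q - P) (R - P)| / 2) ≤ μHE[2] T := by
    intro P Q R hP hQ hR
    rw [← area_proj_triangle v hv]
    exact measure_mono (tri P Q R hP hQ hR)
  by_contra hlt
  push Not at hlt
  have conv : ∀ t : ℝ, ENNReal.ofReal t ≤ μHE[2] T → t < Real.sqrt 2 := by
    intro t ht
    have := lt_of_le_of_lt ht hlt
    exact (ENNReal.ofReal_lt_ofReal_iff (by positivity)).mp this
  set s : ℝ := Real.sqrt 2 with hs
  have hs2 : s ^ 2 = 2 := Real.sq_sqrt (by norm_num)
  have hs0 : 0 < s := by positivity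
  have b1 := conv _ (area_two_triangles v hv vA vB vC vD T (tri _ _ _ mC mA mB) (tri _ _ _ mD mA mB))
  have b2 := conv _ (area_two_triangles v hv vA vC vB vD T (tri _ _ _ mB mA mC) (tri _ _ _ mD mA mC))
  have b3 := conv _ (area_two_triangles v hv vA vD vB vC T (tri _ _ _ mB mA mD) (tri _ _ _ mC mA mD))
  have b4 := conv _ (face vA vB vC mA mB mC)
  have b5 := conv _ (face vA vB vD mA mB mD)
  have b6 := conv _ (face vA vC vD mA mC mD)
  have b7 := conv _ (face vB vC vD mB mC mD)
  have hn : v 0 ^ 2 + v 1 ^ 2 + v 2 ^ 2 = 1 := by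
    rw [← norm_sq_eq, hv]; norm_num
  have e1 : det3 v (vB - vA) (vC - vD) = 2 * ((-2) * v 2) := by
    simp [det3, vA, vB, vC, vD]; ring
  have e2 : det3 v (vC - vA) (vB - vD) = 2 * ((-s) * (v 0 + v 1)) := by
    simp [det3, vA, vB, vC, vD]; ring
  have e3 : det3 v (vD - vA) (vB - vC) = 2 * (s * (v 0 - v 1)) := by
    simp [det3, vA, vB, vC, vD]; ring
  have e4 : det3 v (vB - vA) (vC - vA) = 2 * (s * v 1 - v 2) := by
    simp [det3, vA, vB, vC, vD]; ring
  have e5 : det3 v (vB - vA) (vD - vA) = 2 * (s * v 1 + v 2) := by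
    simp [det3, vA, vB, vC, vD]; ring
  have e6 : det3 v (vC - vA) (vD - vA) = 2 * (s * v 0 + v 2) := by
    simp [det3, vA, vB, vC, vD]; ring
  have e7 : det3 v (vC - vB) (vD - vB) = 2 * (s * v 0 - v 2) := by
    simp [det3, vA, vB, vC, vD]; ring
  have half : ∀ t : ℝ, |2 * t| / 2 = |t| := by
    intro t
    rw [abs_mul, abs_of_pos (by norm_num : (0 : ℝ) < 2)]
    ring
  rw [e1, half, abs_mul, abs_neg, abs_of_pos (by norm_num : (0 : ℝ) < 2)] at b1
  rw [e2, half, abs_mul, abs_neg, abs_of_pos hs0] at b2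
  rw [e3, half, abs_mul, abs_of_pos hs0] at b3
  rw [e4, half] at b4
  rw [e5, half] at b5
  rw [e6, half] at b6
  rw [e7, half] at b7
  exact key_ineq (v 0) (v 1) (v 2) s hs2 hs0 hn b1 b2 b3 b4 b5 b6 b7

theorem inner_projL (v : E3) (hv : ‖v‖ = 1) (y : E3) : inner ℝ (projL v y) v = 0 := by
  rw [projL_apply, inner_sub_left, inner_smul_left, real_inner_self_eq_norm_sq, hv]
  simp

theorem proj_area_lt_top (v : E3) (hv : ‖v‖ = 1) :
    μHE[2] ((fun y => y - inner ℝ y v • v) '' Ktet) < ⊤ := by
  rw [← projL_coe, Ktet_eq, LinearMap.image_convexHull]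
  have hv0 : v ≠ 0 := by
    rintro rfl
    simp at hv
  apply area_lt_top_of_bounded_planar v hv0
  · have hfin : (projL v '' ({vA, vB, vC, vD} : Set E3)).Finite := (by simp : Set.Finite _).image _
    exact (hfin.isCompact_convexHull ℝ).isBounded
  · rw [← LinearMap.image_convexHull]
    rintro x ⟨y, -, rfl⟩
    exact inner_projL v hv y

theorem proj_area_eq : ∃ v : E3, ‖v‖ = 1 ∧
    μHE[2] ((fun y => y - inner ℝ y v • v) '' Ktet) = ENNReal.ofReal (Real.sqrt 2) := by
  have hv : ‖vA‖ = 1 := by
    have h := norm_sq_eq vA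
    have h2 : ‖vA‖ ^ 2 = 1 := by
      rw [h]; simp [vA]
    have h3 : 0 ≤ ‖vA‖ := norm_nonneg _
    nlinarith
  refine ⟨vA, hv, ?_⟩
  rw [← projL_coe, Ktet_eq, LinearMap.image_convexHull]
  have hAB : projL vA vB = projL vA vA := by
    have : vB = (-1 : ℝ) • vA := by
      ext i; fin_cases i <;> simp [vA, vB]
    have hA0 : projL vA vA = 0 := by
      rw [projL_apply, real_inner_self_eq_norm_sq, hv]; simp
    rw [this, map_smul, hA0, smul_zero]
  have himg : projL vA '' ({vA, vB, vC, vD} : Set E3) =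
      {projL vA vA, projL vA vC, projL vA vD} := by
    simp only [Set.image_insert_eq, Set.image_singleton, hAB, Set.insert_eq_of_mem,
      Set.mem_insert_iff, true_or]
  rw [himg, area_proj_triangle vA hv]
  congr 1
  have e6 : det3 vA (vC - vA) (vD - vA) = 2 * Real.sqrt 2 := by
    simp [det3, vA, vC, vD]; ring
  rw [e6, abs_of_pos (by positivity)]
  ring

end Crest.Agent.S0324Aux
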