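import Crest.Agent.S0324Aux.Defs

set_option autoImplicit false
open MeasureTheory
open scoped ENNReal

namespace Crest.Agent.S0324Aux

theorem gram2_nonneg (a b : E3) : 0 ≤ gram2 a b := sorry

theorem area_pgram (c a b : E3) :
    μHE[2] (pgram c a b) = ENNReal.ofReal (Real.sqrt (gram2 a b)) := sorry

theorem area_triangle (p q r : E3) :
    μHE[2] (convexHull ℝ ({p, q, r} : Set E3)) =
      ENNReal.ofReal (Real.sqrt (gram2 (q - p) (r - p)) / 2) := sorry

/-- `μHE[2]` is a finite nonzero multiple of `μH[2]`. -/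
theorem exists_muHE_eq_mul_muH :
    ∃ κ : ℝ, 0 < κ ∧ ∀ s : Set E3, μHE[2] s = ENNReal.ofReal κ * μH[(2 : ℝ)] s := sorry

/-- bounded subsets of a plane through the origin have finite area -/
theorem area_lt_top_of_bounded_planar (u : E3) (hu : u ≠ 0) (s : Set E3)
    (hs : Bornology.IsBounded s) (hsu : ∀ x ∈ s, inner ℝ x u = 0) : μHE[2] s < ⊤ := sorry

/-- Gram determinant after projecting along a unit vector. -/
theorem gram2_proj_unit (v a b : E3) (hv : ‖v‖ = 1) :
    gram2 (a - inner ℝ a v • v) (b - inner ℝ b v • v) =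
      (v 0 * (a 1 * b 2 - a 2 * b 1) + v 1 * (a 2 * b 0 - a 0 * b 2)
        + v 2 * (a 0 * b 1 - a 1 * b 0)) ^ 2 := sorry

/-- Gram determinant after projecting vectors of `e^⊥` along `e + w`, `w ⊥ e`. -/
theorem gram2_projAlong (e w a b : E3) (he : ‖e‖ = 1) (hw : inner ℝ w e = 0)
    (ha : inner ℝ a e = 0) (hb : inner ℝ b e = 0) :
    gram2 (projAlong (e + w) a) (projAlong (e + w) b) = gram2 a b / (1 + ‖w‖ ^ 2) := sorry

theorem inner_projAlong (n y : E3) (hn : n ≠ 0) : inner ℝ (projAlong n y) n = 0 := sorry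

/-- compact planar sets have relatively open bounded neighbourhoods of almost the same area -/
theorem exists_open_base (u : E3) (hu : u ≠ 0) (P : Set E3) (hP : IsCompact P)
    (hPu : ∀ x ∈ P, inner ℝ x u = 0) (η : ℝ) (hη : 0 < η) :
    ∃ O : Set E3, IsOpen O ∧ P ⊆ O ∧ Bornology.IsBounded (O ∩ {x | inner ℝ x u = 0}) ∧
      (μHE[2] (O ∩ {x | inner ℝ x u = 0})).toReal ≤ (μHE[2] P).toReal + η := sorry

/-- a triangle is covered by `k` parallelograms of total area `(1 + 1/k)` times its area -/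
theorem triangle_subset_pgrams (p q r : E3) (k : ℕ) (hk : 0 < k) :
    ∃ (c a b : Fin k → E3),
      convexHull ℝ ({p, q, r} : Set E3) ⊆ ⋃ j, pgram (c j) (a j) (b j) ∧
      (∀ u : E3, inner ℝ p u = 0 → inner ℝ q u = 0 → inner ℝ r u = 0 →
        ∀ j, inner ℝ (c j) u = 0 ∧ inner ℝ (a j) u = 0 ∧ inner ℝ (b j) u = 0) ∧
      ∑ j, Real.sqrt (gram2 (a j) (b j)) =
        (1 + 1 / (k : ℝ)) * (Real.sqrt (gram2 (q - p) (r - p)) / 2) := sorry

end Crest.Agent.S0324Aux
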