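import Crest.Agent.S0324Aux.Defs

set_option autoImplicit false
open MeasureTheory
open scoped ENNReal

namespace Crest.Agent.S0324Aux

/-- The explicit two-fan cover of the standard tetrahedron. -/
theorem cover_core :
    ∃ (m : ℕ) (u p q r : Fin m → E3), m ≤ 8000000 ∧ (∀ i, ‖u i‖ = 1) ∧
      (∀ i, inner ℝ (p i) (u i) = 0 ∧ inner ℝ (q i) (u i) = 0 ∧ inner ℝ (r i) (u i) = 0) ∧
      Ktet ⊆ ⋃ i, {x : E3 | ∃ b ∈ convexHull ℝ {p i, q i, r i}, ∃ t : ℝ, x = b + t • u i} ∧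
      ∑ i, Real.sqrt (gram2 (q i - p i) (r i - p i)) / 2 ≤ Real.sqrt 2 * (1 / 2 - 1 / 10 ^ 9) := sorry

theorem proj_area_ge (v : E3) (hv : ‖v‖ = 1) :
    ENNReal.ofReal (Real.sqrt 2) ≤ μHE[2] ((fun y => y - inner ℝ y v • v) '' Ktet) := sorry

theorem proj_area_lt_top (v : E3) (hv : ‖v‖ = 1) :
    μHE[2] ((fun y => y - inner ℝ y v • v) '' Ktet) < ⊤ := sorry

theorem proj_area_eq : ∃ v : E3, ‖v‖ = 1 ∧
    μHE[2] ((fun y => y - inner ℝ y v • v) '' Ktet) = ENNReal.ofReal (Real.sqrt 2) := sorry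

end Crest.Agent.S0324Aux
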