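import Mathlib

/-! Pure real-arithmetic part of the explicit two-fan cover of the regular tetrahedron. -/

set_option autoImplicit false

namespace Crest.Agent.S0324Aux

/-- second coordinate of the tile velocity divided by `ε` -/
noncomputable def aT (δ c : ℝ) : ℝ := (1 + c ^ 2 - δ ^ 2 / 4) / 2

/-- height of the tile with centre parameter `c` -/
noncomputable def Rf (ε δ c : ℝ) : ℝ :=
  1 / 2 + (1 + 3 * ε) * (ε ^ 2 * ((c ^ 2 + c ^ 4) / 4) + ε * δ / 4 + ε ^ 2 * δ / 4)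

theorem aT_nonneg (δ c : ℝ) (hδ : 0 < δ) (hδ1 : δ ≤ 1) : 0 ≤ aT δ c := by
  unfold aT
  nlinarith [sq_nonneg c]

theorem aT_le (δ c : ℝ) : aT δ c ≤ (1 + c ^ 2) / 2 := by
  unfold aT
  nlinarith [sq_nonneg δ]

theorem aT_le_one (δ c : ℝ) (hc : |c| ≤ 1) : aT δ c ≤ 1 := by
  have h := aT_le δ c
  have : c ^ 2 ≤ 1 := by
    have := abs_le.mp hc
    nlinarith
  linarith

theorem abs_mul_le_of_le_one {p q B : ℝ} (hp : |p| ≤ 1) (hq : |q| ≤ B) : |p * q| ≤ B := by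
  rw [abs_mul]
  calc |p| * |q| ≤ 1 * B := mul_le_mul hp hq (abs_nonneg _) (by norm_num)
    _ = B := one_mul B

theorem key_main (c c' a a' : ℝ) (haL : a ≤ (1 + c ^ 2) / 2) (haL' : a' ≤ (1 + c' ^ 2) / 2) :
    (c ^ 2 * a' + c' ^ 2 * a) / 2 ≤ (c ^ 2 + c ^ 4) / 4 + (c' ^ 2 + c' ^ 4) / 4 := by
  have hq1' : c ^ 2 * a' ≤ c ^ 2 * ((1 + c' ^ 2) / 2) :=
    mul_le_mul_of_nonneg_left haL' (sq_nonneg c)
  have hq2' : c' ^ 2 * a ≤ c' ^ 2 * ((1 + c ^ 2) / 2) :=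
    mul_le_mul_of_nonneg_left haL (sq_nonneg c')
  nlinarith [sq_nonneg (c ^ 2 - c' ^ 2)]

theorem key_final (ε δ Δ Φ : ℝ) (hε : 0 < ε) (hε1 : ε ≤ 1 / 10) (hδ : 0 < δ) (hδ1 : δ ≤ 1)
    (hΔ0 : 0 < Δ)
    (hsum : Δ ≤ ε * Δ + ε * (δ / 2 * (1 + Δ)) + ε ^ 2 * (Φ + Δ) + ε ^ 2 * (δ / 2 * (1 + Δ))) :
    Δ ≤ (1 + 3 * ε) * (ε ^ 2 * Φ + ε * δ / 2 + ε ^ 2 * δ / 2) := by
  set W := ε ^ 2 * Φ + ε * δ / 2 + ε ^ 2 * δ / 2 with hW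
  have hstep : Δ * (1 - 2 * ε) ≤ W := by
    have hsmall : ε * δ / 2 + ε ^ 2 + ε ^ 2 * δ / 2 ≤ ε := by nlinarith
    have : Δ * (ε * δ / 2 + ε ^ 2 + ε ^ 2 * δ / 2) ≤ Δ * ε := mul_le_mul_of_nonneg_left hsmall hΔ0.le
    rw [hW]
    nlinarith
  have h5 : 1 ≤ (1 - 2 * ε) * (1 + 3 * ε) := by nlinarith
  have h6 : Δ * 1 ≤ Δ * ((1 - 2 * ε) * (1 + 3 * ε)) := mul_le_mul_of_nonneg_left h5 hΔ0.le
  have h7 : Δ * (1 - 2 * ε) * (1 + 3 * ε) ≤ W * (1 + 3 * ε) :=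
    mul_le_mul_of_nonneg_right hstep (by positivity)
  nlinarith

/-- abstract form of the covering inequality -/
theorem key_abstract (ε δ c c' a a' h h' e₁ e₂ : ℝ) (hε : 0 < ε) (hε1 : ε ≤ 1 / 10) (hδ : 0 < δ)
    (hδ1 : δ ≤ 1) (hc : |c| ≤ 1) (hc' : |c'| ≤ 1)
    (ha0 : 0 ≤ a) (ha0' : 0 ≤ a') (ha1 : a ≤ 1) (ha1' : a' ≤ 1)
    (haL : a ≤ (1 + c ^ 2) / 2) (haL' : a' ≤ (1 + c' ^ 2) / 2)
    (hE1 : |e₁| ≤ δ / 2 * h) (hE2 : |e₂| ≤ δ / 2 * h')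
    (hid : (h + h' - 1) * (1 + ε ^ 2 * a * a') =
      -ε * c * c' * (h - h') - ε * (c' * e₁ - c * e₂) + ε ^ 2 * (c ^ 2 * a' * h + c' ^ 2 * a * h')
        + ε ^ 2 * (c * a' * e₁ + c' * a * e₂))
    (hu : 0 < h - 1 / 2) (hu' : 0 < h' - 1 / 2) :
    h + h' - 1 ≤ (1 + 3 * ε) *
      (ε ^ 2 * ((c ^ 2 + c ^ 4) / 4 + (c' ^ 2 + c' ^ 4) / 4) + ε * δ / 2 + ε ^ 2 * δ / 2) := by
  obtain ⟨hcl, hcu⟩ := abs_le.mp hc
  obtain ⟨hcl', hcu'⟩ := abs_le.mp hc'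
  have hc2 : c ^ 2 ≤ 1 := by nlinarith
  have hc2' : c' ^ 2 ≤ 1 := by nlinarith
  have hε2 : 0 ≤ ε ^ 2 := by positivity
  set Δ := h + h' - 1 with hΔ
  have hΔ0 : 0 < Δ := by linarith
  have hcc : |c * c'| ≤ 1 := abs_mul_le_of_le_one hc hc'
  have hhh : |h - h'| ≤ Δ := by
    rw [abs_le]; constructor <;> linarith
  have T1 : -ε * c * c' * (h - h') ≤ ε * Δ := by
    have h3 := (abs_le.mp (abs_mul_le_of_le_one hcc hhh)).1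
    have h4 : -((c * c') * (h - h')) ≤ Δ := by linarith
    calc -ε * c * c' * (h - h') = ε * (-((c * c') * (h - h'))) := by ring
      _ ≤ ε * Δ := mul_le_mul_of_nonneg_left h4 hε.le
  have T2 : -ε * (c' * e₁ - c * e₂) ≤ ε * (δ / 2 * (1 + Δ)) := by
    have h3 := (abs_le.mp (abs_mul_le_of_le_one hc' hE1)).1
    have h4 := (abs_le.mp (abs_mul_le_of_le_one hc hE2)).2
    have h5 : -(c' * e₁ - c * e₂) ≤ δ / 2 * (1 + Δ) := by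
      rw [hΔ]; linarith
    calc -ε * (c' * e₁ - c * e₂) = ε * (-(c' * e₁ - c * e₂)) := by ring
      _ ≤ _ := mul_le_mul_of_nonneg_left h5 hε.le
  have hca : |c * a'| ≤ 1 := abs_mul_le_of_le_one hc (by rw [abs_of_nonneg ha0']; exact ha1')
  have hca' : |c' * a| ≤ 1 := abs_mul_le_of_le_one hc' (by rw [abs_of_nonneg ha0]; exact ha1)
  have T4 : ε ^ 2 * (c * a' * e₁ + c' * a * e₂) ≤ ε ^ 2 * (δ / 2 * (1 + Δ)) := by
    have h3 := (abs_le.mp (abs_mul_le_of_le_one hca hE1)).2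
    have h4 := (abs_le.mp (abs_mul_le_of_le_one hca' hE2)).2
    have : c * a' * e₁ + c' * a * e₂ ≤ δ / 2 * (1 + Δ) := by
      rw [hΔ]; linarith
    exact mul_le_mul_of_nonneg_left this hε2
  have hq1 : c ^ 2 * a' ≤ 1 := by
    calc c ^ 2 * a' ≤ 1 * 1 := mul_le_mul hc2 ha1' ha0' (by norm_num)
      _ = 1 := by norm_num
  have hq2 : c' ^ 2 * a ≤ 1 := by
    calc c' ^ 2 * a ≤ 1 * 1 := mul_le_mul hc2' ha1 ha0 (by norm_num)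
      _ = 1 := by norm_num
  have hmain := key_main c c' a a' haL haL'
  have T3 : ε ^ 2 * (c ^ 2 * a' * h + c' ^ 2 * a * h') ≤
      ε ^ 2 * (((c ^ 2 + c ^ 4) / 4 + (c' ^ 2 + c' ^ 4) / 4) + Δ) := by
    apply mul_le_mul_of_nonneg_left _ hε2
    have e1 : c ^ 2 * a' * h = c ^ 2 * a' / 2 + c ^ 2 * a' * (h - 1 / 2) := by ring
    have e2 : c' ^ 2 * a * h' = c' ^ 2 * a / 2 + c' ^ 2 * a * (h' - 1 / 2) := by ring
    have b1 : c ^ 2 * a' * (h - 1 / 2) ≤ 1 * (h - 1 / 2) :=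
      mul_le_mul_of_nonneg_right hq1 hu.le
    have b2 : c' ^ 2 * a * (h' - 1 / 2) ≤ 1 * (h' - 1 / 2) :=
      mul_le_mul_of_nonneg_right hq2 hu'.le
    rw [e1, e2, hΔ]
    linarith
  have hL : Δ ≤ Δ * (1 + ε ^ 2 * a * a') := by
    have h8 : 0 ≤ ε ^ 2 * a * a' := by positivity
    have h9 : 0 ≤ Δ * (ε ^ 2 * a * a') := mul_nonneg hΔ0.le h8
    linarith
  apply key_final ε δ Δ _ hε hε1 hδ hδ1 hΔ0
  linarith

/-- The key covering inequality: a point cannot be above both its lower tile and its upper tile. -/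
theorem key_cover (ε δ c c' x y Z : ℝ) (hε : 0 < ε) (hε1 : ε ≤ 1 / 10) (hδ : 0 < δ) (hδ1 : δ ≤ 1)
    (hc : |c| ≤ 1) (hc' : |c'| ≤ 1)
    (h1 : |y - ε * aT δ c * x - c * (Z - ε * c * x)| ≤ δ / 2 * (Z - ε * c * x))
    (h2 : |-x - ε * aT δ c' * y - c' * (1 - Z - ε * c' * y)| ≤ δ / 2 * (1 - Z - ε * c' * y)) :
    Z - ε * c * x ≤ Rf ε δ c ∨ 1 - Z - ε * c' * y ≤ Rf ε δ c' := by
  by_contra hcon
  push Not at hcon
  obtain ⟨hR, hR'⟩ := hcon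
  have h3ε : 0 ≤ 1 + 3 * ε := by positivity
  have hW0 : 0 ≤ ε ^ 2 * ((c ^ 2 + c ^ 4) / 4) + ε * δ / 4 + ε ^ 2 * δ / 4 := by positivity
  have hW0' : 0 ≤ ε ^ 2 * ((c' ^ 2 + c' ^ 4) / 4) + ε * δ / 4 + ε ^ 2 * δ / 4 := by positivity
  unfold Rf at hR hR'
  have hu : 0 < (Z - ε * c * x) - 1 / 2 := by
    have := mul_nonneg h3ε hW0
    linarith
  have hu' : 0 < (1 - Z - ε * c' * y) - 1 / 2 := by
    have := mul_nonneg h3ε hW0'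
    linarith
  have key := key_abstract ε δ c c' (aT δ c) (aT δ c') (Z - ε * c * x) (1 - Z - ε * c' * y)
    (y - ε * aT δ c * x - c * (Z - ε * c * x)) (-x - ε * aT δ c' * y - c' * (1 - Z - ε * c' * y))
    hε hε1 hδ hδ1 hc hc' (aT_nonneg δ c hδ hδ1) (aT_nonneg δ c' hδ hδ1) (aT_le_one δ c hc)
    (aT_le_one δ c' hc') (aT_le δ c) (aT_le δ c') h1 h2 (by ring) hu hu'
  have e : (1 + 3 * ε) *
      (ε ^ 2 * ((c ^ 2 + c ^ 4) / 4 + (c' ^ 2 + c' ^ 4) / 4) + ε * δ / 2 + ε ^ 2 * δ / 2) =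
      (1 + 3 * ε) * (ε ^ 2 * ((c ^ 2 + c ^ 4) / 4) + ε * δ / 4 + ε ^ 2 * δ / 4) +
      (1 + 3 * ε) * (ε ^ 2 * ((c' ^ 2 + c' ^ 4) / 4) + ε * δ / 4 + ε ^ 2 * δ / 4) := by ring
  rw [e] at key
  linarith

end Crest.Agent.S0324Aux
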