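import Crest.Agent.S0324Aux.CoverAlg

/-! Index selection (discrete intermediate value) and the area sum of one fan. -/

set_option autoImplicit false

namespace Crest.Agent.S0324Aux

theorem discrete_ivt (f : ℕ → ℝ) (N : ℕ) (hNpos : 0 < N) (h0 : 0 ≤ f 0) (hN : f N ≤ 0) :
    ∃ i, i < N ∧ 0 ≤ f i ∧ f (i + 1) ≤ 0 := by
  induction N with
  | zero => exact absurd hNpos (lt_irrefl 0)
  | succ n ih =>
    by_cases hn : f n ≤ 0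
    · rcases Nat.eq_zero_or_pos n with h | h
      · subst h
        exact ⟨0, Nat.succ_pos 0, h0, hN⟩
      · obtain ⟨i, hi, h1, h2⟩ := ih h hn
        exact ⟨i, Nat.lt_succ_of_lt hi, h1, h2⟩
    · exact ⟨n, Nat.lt_succ_self n, (not_le.mp hn).le, hN⟩

/-- centre parameter of the `i`-th tile of a fan with `N` tiles -/
noncomputable def cT (N i : ℕ) : ℝ := -1 + (2 * (i : ℝ) + 1) / N

theorem abs_cT_le (N i : ℕ) (hi : i < N) : |cT N i| ≤ 1 := by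
  have hN : (0 : ℝ) < N := by exact_mod_cast (Nat.zero_lt_of_lt hi)
  have hi' : (i : ℝ) + 1 ≤ N := by exact_mod_cast hi
  unfold cT
  rw [abs_le]
  constructor
  · have : 0 ≤ (2 * (i : ℝ) + 1) / N := by positivity
    linarith
  · have : (2 * (i : ℝ) + 1) / N ≤ 2 := by
      rw [div_le_iff₀ hN]
      linarith
    linarith

/-- every point of the wedge `|y| ≤ Z` lies in one of the `N` moving sectors -/
theorem wedge_exists (ε x y Z : ℝ) (N : ℕ) (hN : 0 < N) (hy : |y| ≤ Z) :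
    ∃ i, i < N ∧ |y - ε * aT (2 / N) (cT N i) * x - cT N i * (Z - ε * cT N i * x)| ≤
      (2 / (N : ℝ)) / 2 * (Z - ε * cT N i * x) := by
  have hNr : (0 : ℝ) < N := by exact_mod_cast hN
  obtain ⟨hy1, hy2⟩ := abs_le.mp hy
  set t : ℕ → ℝ := fun i => -1 + (i : ℝ) * (2 / N) with ht
  obtain ⟨i, hi, h1, h2⟩ := discrete_ivt (fun i => y - t i * Z - ε * (1 - t i ^ 2) / 2 * x) N hN
    (by simp only [ht]; norm_num; linarith)
    (by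
      have : t N = 1 := by
        simp only [ht]; field_simp; ring
      simp only [this]; norm_num; linarith)
  refine ⟨i, hi, ?_⟩
  have hc1 : t i = cT N i - (2 / (N : ℝ)) / 2 := by
    simp only [ht, cT]; field_simp; ring
  have hc2 : t (i + 1) = cT N i + (2 / (N : ℝ)) / 2 := by
    simp only [ht, cT]; push_cast; field_simp; ring
  simp only [hc1] at h1
  simp only [hc2] at h2
  set c := cT N i
  set δ := (2 / (N : ℝ))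
  unfold aT
  rw [abs_le]
  constructor
  · nlinarith
  · nlinarith

theorem sum_sq_odd (n : ℕ) (M : ℝ) :
    ∑ i ∈ Finset.range n, (2 * (i : ℝ) + 1 - M) ^ 2 =
      n * (4 * (n : ℝ) ^ 2 - 1) / 3 - 2 * M * (n : ℝ) ^ 2 + M ^ 2 * n := by
  induction n with
  | zero => simp
  | succ k ih =>
    rw [Finset.sum_range_succ, ih]
    push_cast
    ring

theorem sum_fourth_odd (n : ℕ) (M : ℝ) :
    ∑ i ∈ Finset.range n, (2 * (i : ℝ) + 1 - M) ^ 4 =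
      n * (48 * (n : ℝ) ^ 4 - 40 * (n : ℝ) ^ 2 + 7) / 15 - 4 * M * ((n : ℝ) ^ 2 * (2 * (n : ℝ) ^ 2 - 1))
        + 6 * M ^ 2 * (n * (4 * (n : ℝ) ^ 2 - 1) / 3) - 4 * M ^ 3 * (n : ℝ) ^ 2 + M ^ 4 * n := by
  induction n with
  | zero => simp
  | succ k ih =>
    rw [Finset.sum_range_succ, ih]
    push_cast
    ring

theorem sum_cT_sq (N : ℕ) (hN : 0 < N) :
    ∑ i ∈ Finset.range N, (cT N i) ^ 2 = ((N : ℝ) ^ 2 - 1) / (3 * N) := by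
  have hNr : (N : ℝ) ≠ 0 := by exact_mod_cast hN.ne'
  have h : ∀ i ∈ Finset.range N, (cT N i) ^ 2 = (2 * (i : ℝ) + 1 - N) ^ 2 / (N : ℝ) ^ 2 := by
    intro i _
    unfold cT
    field_simp
    ring
  rw [Finset.sum_congr rfl h, ← Finset.sum_div, sum_sq_odd]
  field_simp
  ring

theorem sum_cT_fourth (N : ℕ) (hN : 0 < N) :
    ∑ i ∈ Finset.range N, (cT N i) ^ 4 =
      ((N : ℝ) ^ 2 - 1) * (3 * (N : ℝ) ^ 2 - 7) / (15 * (N : ℝ) ^ 3) := by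
  have hNr : (N : ℝ) ≠ 0 := by exact_mod_cast hN.ne'
  have h : ∀ i ∈ Finset.range N, (cT N i) ^ 4 = (2 * (i : ℝ) + 1 - N) ^ 4 / (N : ℝ) ^ 4 := by
    intro i _
    unfold cT
    field_simp
    ring
  rw [Finset.sum_congr rfl h, ← Finset.sum_div, sum_fourth_odd]
  field_simp
  ring

theorem inv_sqrt_le (X : ℝ) (hX : 0 ≤ X) :
    1 / Real.sqrt (1 + X) ≤ 1 - X / 2 + 3 * X ^ 2 / 8 := by
  have hpos : 0 < 1 - X / 2 + 3 * X ^ 2 / 8 := by nlinarith [sq_nonneg (X - 2 / 3)]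
  have h1 : 0 < 1 + X := by linarith
  rw [div_le_iff₀ (Real.sqrt_pos.mpr h1)]
  have h2 : 1 ≤ (1 - X / 2 + 3 * X ^ 2 / 8) ^ 2 * (1 + X) := by
    have : (1 - X / 2 + 3 * X ^ 2 / 8) ^ 2 * (1 + X) =
        1 + X ^ 3 * (5 / 8 - 15 / 64 * X + 9 / 64 * X ^ 2) := by ring
    rw [this]
    have h3 : 0 ≤ 5 / 8 - 15 / 64 * X + 9 / 64 * X ^ 2 := by nlinarith [sq_nonneg (X - 5 / 6)]
    have : 0 ≤ X ^ 3 * (5 / 8 - 15 / 64 * X + 9 / 64 * X ^ 2) := by positivity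
    linarith
  have h4 : Real.sqrt ((1 - X / 2 + 3 * X ^ 2 / 8) ^ 2 * (1 + X)) =
      (1 - X / 2 + 3 * X ^ 2 / 8) * Real.sqrt (1 + X) := by
    rw [Real.sqrt_mul (sq_nonneg _), Real.sqrt_sq hpos.le]
  rw [← h4]
  calc (1 : ℝ) = Real.sqrt 1 := Real.sqrt_one.symm
    _ ≤ _ := Real.sqrt_le_sqrt h2

end Crest.Agent.S0324Aux

namespace Crest.Agent.S0324Aux

/-- squared norm of the transversal velocity of a tile -/
noncomputable def XT (ε δ c : ℝ) : ℝ := ε ^ 2 * (aT δ c) ^ 2 + 2 * ε ^ 2 * c ^ 2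

noncomputable def Ebar (ε δ : ℝ) : ℝ := (1 + 3 * ε) * (ε ^ 2 / 2 + ε * δ / 4 + ε ^ 2 * δ / 4)

noncomputable def K0 (ε δ : ℝ) : ℝ :=
  1 / 4 - ε ^ 2 / 32 + ε ^ 2 * δ ^ 2 / 32 + 27 * ε ^ 4 / 32 +
    (1 + 3 * ε) * (ε * δ / 4 + ε ^ 2 * δ / 4) + (Ebar ε δ) ^ 2

noncomputable def K2 (ε : ℝ) : ℝ := -5 * ε ^ 2 / 16 + (1 + 3 * ε) * ε ^ 2 / 4

noncomputable def K4 (ε : ℝ) : ℝ := -ε ^ 2 / 32 + (1 + 3 * ε) * ε ^ 2 / 4

theorem XT_nonneg (ε δ c : ℝ) : 0 ≤ XT ε δ c := by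
  unfold XT; positivity

theorem XT_le (ε δ c : ℝ) (hδ : 0 < δ) (hδ1 : δ ≤ 1) (hc : |c| ≤ 1) :
    XT ε δ c ≤ 3 * ε ^ 2 := by
  obtain ⟨hcl, hcu⟩ := abs_le.mp hc
  have hc2 : c ^ 2 ≤ 1 := by nlinarith
  have ha0 := aT_nonneg δ c hδ hδ1
  have ha1 := aT_le_one δ c hc
  have hε2 : 0 ≤ ε ^ 2 := by positivity
  have ha2 : (aT δ c) ^ 2 ≤ 1 := by nlinarith
  unfold XT
  have h1 := mul_le_mul_of_nonneg_left ha2 hε2
  have h2 := mul_le_mul_of_nonneg_left hc2 hε2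
  linarith

theorem XT_ge (ε δ c : ℝ) (hc : |c| ≤ 1) :
    ε ^ 2 * (1 / 4 + 5 / 2 * c ^ 2 + c ^ 4 / 4 - δ ^ 2 / 4) ≤ XT ε δ c := by
  obtain ⟨hcl, hcu⟩ := abs_le.mp hc
  have hc2 : c ^ 2 ≤ 1 := by nlinarith
  have hε2 : 0 ≤ ε ^ 2 := by positivity
  have ha2l : ((1 + c ^ 2) / 2) ^ 2 - δ ^ 2 / 4 ≤ (aT δ c) ^ 2 := by
    unfold aT
    have : ((1 + c ^ 2 - δ ^ 2 / 4) / 2) ^ 2 =
        ((1 + c ^ 2) / 2) ^ 2 - (1 + c ^ 2) / 2 * (δ ^ 2 / 4) + (δ ^ 2 / 8) ^ 2 := by ring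
    rw [this]
    have h1 : (1 + c ^ 2) / 2 * (δ ^ 2 / 4) ≤ 1 * (δ ^ 2 / 4) :=
      mul_le_mul_of_nonneg_right (by linarith) (by positivity)
    have h2 := sq_nonneg (δ ^ 2 / 8)
    linarith
  unfold XT
  have := mul_le_mul_of_nonneg_left ha2l hε2
  have e : ε ^ 2 * (1 / 4 + 5 / 2 * c ^ 2 + c ^ 4 / 4 - δ ^ 2 / 4) =
      ε ^ 2 * (((1 + c ^ 2) / 2) ^ 2 - δ ^ 2 / 4) + 2 * ε ^ 2 * c ^ 2 := by ring
  rw [e]
  linarith

theorem tile_bound (ε δ c : ℝ) (hε : 0 < ε) (hδ : 0 < δ) (hδ1 : δ ≤ 1)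
    (hc : |c| ≤ 1) :
    (Rf ε δ c) ^ 2 / Real.sqrt (1 + XT ε δ c) ≤ K0 ε δ + K2 ε * c ^ 2 + K4 ε * c ^ 4 := by
  have hc2 : c ^ 2 ≤ 1 := by
    obtain ⟨hcl, hcu⟩ := abs_le.mp hc
    nlinarith
  have hc4 : c ^ 4 ≤ 1 := by
    have : c ^ 4 = c ^ 2 * c ^ 2 := by ring
    rw [this]
    calc c ^ 2 * c ^ 2 ≤ 1 * 1 := mul_le_mul hc2 hc2 (sq_nonneg c) (by norm_num)
      _ = 1 := by norm_num
  have hε2 : 0 ≤ ε ^ 2 := by positivity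
  have hX0 := XT_nonneg ε δ c
  have hXu := XT_le ε δ c hδ hδ1 hc
  have hXl := XT_ge ε δ c hc
  have hX2 : (XT ε δ c) ^ 2 ≤ 9 * ε ^ 4 := by
    calc (XT ε δ c) ^ 2 ≤ (3 * ε ^ 2) ^ 2 := pow_le_pow_left₀ hX0 hXu 2
      _ = 9 * ε ^ 4 := by ring
  set X := XT ε δ c
  set J := 1 / Real.sqrt (1 + X) with hJ
  have hJ1 : J ≤ 1 - X / 2 + 3 * X ^ 2 / 8 := inv_sqrt_le X hX0
  have hJ0 : 0 ≤ J := by positivity
  have hJle : J ≤ 1 := by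
    rw [hJ, div_le_one (Real.sqrt_pos.mpr (by linarith))]
    calc (1 : ℝ) = Real.sqrt 1 := Real.sqrt_one.symm
      _ ≤ _ := Real.sqrt_le_sqrt (by linarith)
  set E := (1 + 3 * ε) * (ε ^ 2 * ((c ^ 2 + c ^ 4) / 4) + ε * δ / 4 + ε ^ 2 * δ / 4) with hE
  have hE0 : 0 ≤ E := by positivity
  have hEle : E ≤ Ebar ε δ := by
    unfold Ebar
    rw [hE]
    apply mul_le_mul_of_nonneg_left _ (by positivity)
    have : ε ^ 2 * ((c ^ 2 + c ^ 4) / 4) ≤ ε ^ 2 * (1 / 2) :=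
      mul_le_mul_of_nonneg_left (by linarith) hε2
    linarith
  have hE2 : E ^ 2 ≤ (Ebar ε δ) ^ 2 := pow_le_pow_left₀ hE0 hEle 2
  have hR : Rf ε δ c = 1 / 2 + E := rfl
  have e1 : (Rf ε δ c) ^ 2 / Real.sqrt (1 + X) = 1 / 4 * J + (E + E ^ 2) * J := by
    rw [hR, hJ]; ring
  rw [e1]
  have b1 : (E + E ^ 2) * J ≤ (E + E ^ 2) * 1 :=
    mul_le_mul_of_nonneg_left hJle (by positivity)
  have hEexp : E = (1 + 3 * ε) * (ε * δ / 4 + ε ^ 2 * δ / 4) + (1 + 3 * ε) * ε ^ 2 / 4 * c ^ 2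
      + (1 + 3 * ε) * ε ^ 2 / 4 * c ^ 4 := by rw [hE]; ring
  have goal_eq : K0 ε δ + K2 ε * c ^ 2 + K4 ε * c ^ 4 =
      1 / 4 * (1 - ε ^ 2 * (1 / 4 + 5 / 2 * c ^ 2 + c ^ 4 / 4 - δ ^ 2 / 4) / 2 + 3 * (9 * ε ^ 4) / 8)
        + (E + (Ebar ε δ) ^ 2) := by
    rw [hEexp]; unfold K0 K2 K4; ring
  rw [goal_eq]
  clear_value E J X
  linarith

theorem fan_sum_bound (ε : ℝ) (N : ℕ) (hN : 2 ≤ N) (hε : 0 < ε) :
    ∑ i ∈ Finset.range N,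
      (Rf ε (2 / N) (cT N i)) ^ 2 * (2 / (N : ℝ)) / (2 * Real.sqrt (1 + XT ε (2 / N) (cT N i))) ≤
      K0 ε (2 / N) + K2 ε * (((N : ℝ) ^ 2 - 1) / (3 * (N : ℝ) ^ 2)) +
        K4 ε * (((N : ℝ) ^ 2 - 1) * (3 * (N : ℝ) ^ 2 - 7) / (15 * (N : ℝ) ^ 4)) := by
  have hN0 : 0 < N := by omega
  have hNr : (0 : ℝ) < N := by exact_mod_cast hN0
  have hN2 : (2 : ℝ) ≤ N := by exact_mod_cast hN
  have hδ : 0 < 2 / (N : ℝ) := by positivity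
  have hδ1 : 2 / (N : ℝ) ≤ 1 := by
    rw [div_le_one hNr]; exact hN2
  have hterm : ∀ i ∈ Finset.range N,
      (Rf ε (2 / N) (cT N i)) ^ 2 * (2 / (N : ℝ)) / (2 * Real.sqrt (1 + XT ε (2 / N) (cT N i))) ≤
      (1 / (N : ℝ)) * (K0 ε (2 / N) + K2 ε * (cT N i) ^ 2 + K4 ε * (cT N i) ^ 4) := by
    intro i hi
    have hb := tile_bound ε (2 / N) (cT N i) hε hδ hδ1 (abs_cT_le N i (Finset.mem_range.mp hi))
    have e : (Rf ε (2 / N) (cT N i)) ^ 2 * (2 / (N : ℝ)) /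
        (2 * Real.sqrt (1 + XT ε (2 / N) (cT N i))) =
        (1 / (N : ℝ)) * ((Rf ε (2 / N) (cT N i)) ^ 2 / Real.sqrt (1 + XT ε (2 / N) (cT N i))) := by
      have : Real.sqrt (1 + XT ε (2 / N) (cT N i)) ≠ 0 := by
        have := XT_nonneg ε (2 / N) (cT N i)
        exact (Real.sqrt_pos.mpr (by linarith)).ne'
      field_simp
    rw [e]
    exact mul_le_mul_of_nonneg_left hb (by positivity)
  refine (Finset.sum_le_sum hterm).trans (le_of_eq ?_)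
  rw [← Finset.mul_sum, Finset.sum_add_distrib, Finset.sum_add_distrib, ← Finset.mul_sum,
    ← Finset.mul_sum, sum_cT_sq N hN0, sum_cT_fourth N hN0, Finset.sum_const, Finset.card_range]
  simp only [nsmul_eq_mul]
  field_simp

theorem fan_sum_numeric (N : ℕ) (hN : N = 1000000) :
    ∑ i ∈ Finset.range N,
      (Rf (1 / 1000) (2 / N) (cT N i)) ^ 2 * (2 / (N : ℝ)) /
        (2 * Real.sqrt (1 + XT (1 / 1000) (2 / N) (cT N i))) ≤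
      1 / 4 - 1 / (2 * 10 ^ 9) := by
  refine (fan_sum_bound (1 / 1000) N (by omega) (by norm_num)).trans ?_
  have hNr : (N : ℝ) = 1000000 := by rw [hN]; norm_num
  rw [hNr]
  unfold K0 K2 K4 Ebar
  norm_num

end Crest.Agent.S0324Aux
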