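import Crest.Agent.S0324Aux.Defs
import Crest.Agent.S0324Aux.CoverSum
import Crest.Agent.S0324Aux.Area
import Crest.Agent.S0324Aux.Area2

/-! One tile (a cylinder over a thin triangle) of the fan cover, in an arbitrary orthonormal frame. -/

set_option autoImplicit false

namespace Crest.Agent.S0324Aux

theorem projAlong_add (n x y : E3) : projAlong n (x + y) = projAlong n x + projAlong n y := by
  unfold projAlong
  rw [inner_add_left, add_div, add_smul]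
  abel

theorem projAlong_smul (n : E3) (a : ℝ) (x : E3) : projAlong n (a • x) = a • projAlong n x := by
  unfold projAlong
  rw [inner_smul_left, smul_sub, smul_smul]
  simp only [RCLike.conj_to_real]
  congr 2
  ring

section frame

variable (e f₁ f₂ : E3)

theorem inner_comb (hf₁ : ‖f₁‖ = 1) (hf₂ : ‖f₂‖ = 1) (h12 : inner ℝ f₁ f₂ = 0)
    (α₁ α₂ β₁ β₂ : ℝ) :
    inner ℝ (α₁ • f₁ + α₂ • f₂) (β₁ • f₁ + β₂ • f₂) = α₁ * β₁ + α₂ * β₂ := by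
  have h11 : inner ℝ f₁ f₁ = 1 := by rw [real_inner_self_eq_norm_sq, hf₁]; norm_num
  have h22 : inner ℝ f₂ f₂ = 1 := by rw [real_inner_self_eq_norm_sq, hf₂]; norm_num
  have h21 : inner ℝ f₂ f₁ = 0 := by rw [real_inner_comm]; exact h12
  simp only [inner_add_left, inner_add_right, inner_smul_left, inner_smul_right, h11, h22, h12, h21,
    RCLike.conj_to_real]
  ring

theorem norm_sq_comb (hf₁ : ‖f₁‖ = 1) (hf₂ : ‖f₂‖ = 1) (h12 : inner ℝ f₁ f₂ = 0) (α₁ α₂ : ℝ) :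
    ‖α₁ • f₁ + α₂ • f₂‖ ^ 2 = α₁ ^ 2 + α₂ ^ 2 := by
  rw [← real_inner_self_eq_norm_sq, inner_comb f₁ f₂ hf₁ hf₂ h12]
  ring

theorem gram2_comb (hf₁ : ‖f₁‖ = 1) (hf₂ : ‖f₂‖ = 1) (h12 : inner ℝ f₁ f₂ = 0)
    (α₁ α₂ β₁ β₂ : ℝ) :
    gram2 (α₁ • f₁ + α₂ • f₂) (β₁ • f₁ + β₂ • f₂) = (α₁ * β₂ - α₂ * β₁) ^ 2 := by
  unfold gram2
  rw [norm_sq_comb f₁ f₂ hf₁ hf₂ h12, norm_sq_comb f₁ f₂ hf₁ hf₂ h12, inner_comb f₁ f₂ hf₁ hf₂ h12]
  ring

theorem inner_comb_e (h01 : inner ℝ e f₁ = 0) (h02 : inner ℝ e f₂ = 0) (α₁ α₂ : ℝ) :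
    inner ℝ (α₁ • f₁ + α₂ • f₂) e = 0 := by
  have h10 : inner ℝ f₁ e = 0 := by rw [real_inner_comm]; exact h01
  have h20 : inner ℝ f₂ e = 0 := by rw [real_inner_comm]; exact h02
  simp [inner_add_left, inner_smul_left, h10, h20]

/-- transversal velocity of the tile -/
noncomputable def wT (ε δ c : ℝ) : E3 := (ε * aT δ c) • f₁ + (Real.sqrt 2 * ε * c) • f₂

/-- axis of the tile -/
noncomputable def nT (ε δ c : ℝ) : E3 := e + wT f₁ f₂ ε δ c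

noncomputable def tileVA (δ c R : ℝ) : E3 := (R * (c - δ / 2)) • f₁ + (Real.sqrt 2 * R) • f₂

noncomputable def tileVB (δ c R : ℝ) : E3 := (R * (c + δ / 2)) • f₁ + (Real.sqrt 2 * R) • f₂

theorem norm_wT_sq (hf₁ : ‖f₁‖ = 1) (hf₂ : ‖f₂‖ = 1) (h12 : inner ℝ f₁ f₂ = 0) (ε δ c : ℝ) :
    ‖wT f₁ f₂ ε δ c‖ ^ 2 = XT ε δ c := by
  unfold wT XT
  rw [norm_sq_comb f₁ f₂ hf₁ hf₂ h12]
  have h2 : Real.sqrt 2 ^ 2 = 2 := Real.sq_sqrt (by norm_num)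
  calc (ε * aT δ c) ^ 2 + (Real.sqrt 2 * ε * c) ^ 2
      = ε ^ 2 * aT δ c ^ 2 + Real.sqrt 2 ^ 2 * ε ^ 2 * c ^ 2 := by ring
    _ = _ := by rw [h2]

theorem norm_nT_sq (he : ‖e‖ = 1) (hf₁ : ‖f₁‖ = 1) (hf₂ : ‖f₂‖ = 1) (h01 : inner ℝ e f₁ = 0)
    (h02 : inner ℝ e f₂ = 0) (h12 : inner ℝ f₁ f₂ = 0) (ε δ c : ℝ) :
    ‖nT e f₁ f₂ ε δ c‖ ^ 2 = 1 + XT ε δ c := by
  unfold nT
  rw [norm_add_sq_real, he, norm_wT_sq f₁ f₂ hf₁ hf₂ h12, real_inner_comm]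
  unfold wT
  rw [inner_comb_e e f₁ f₂ h01 h02]
  ring

theorem nT_ne_zero (he : ‖e‖ = 1) (hf₁ : ‖f₁‖ = 1) (hf₂ : ‖f₂‖ = 1) (h01 : inner ℝ e f₁ = 0)
    (h02 : inner ℝ e f₂ = 0) (h12 : inner ℝ f₁ f₂ = 0) (ε δ c : ℝ) : nT e f₁ f₂ ε δ c ≠ 0 := by
  intro h
  have := norm_nT_sq e f₁ f₂ he hf₁ hf₂ h01 h02 h12 ε δ c
  rw [h, norm_zero] at this
  have h2 := XT_nonneg ε δ c
  norm_num at this
  linarith

/-- area (Gram determinant) of the projected tile triangle -/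
theorem tile_gram (he : ‖e‖ = 1) (hf₁ : ‖f₁‖ = 1) (hf₂ : ‖f₂‖ = 1) (h01 : inner ℝ e f₁ = 0)
    (h02 : inner ℝ e f₂ = 0) (h12 : inner ℝ f₁ f₂ = 0) (o : E3) (ε δ c R : ℝ) :
    gram2 (projAlong (nT e f₁ f₂ ε δ c) (o + tileVA f₁ f₂ δ c R) - projAlong (nT e f₁ f₂ ε δ c) o)
      (projAlong (nT e f₁ f₂ ε δ c) (o + tileVB f₁ f₂ δ c R) - projAlong (nT e f₁ f₂ ε δ c) o) =
      2 * (R ^ 2 * δ) ^ 2 / (1 + XT ε δ c) := by
  rw [projAlong_add, projAlong_add, add_sub_cancel_left, add_sub_cancel_left]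
  unfold nT
  rw [gram2_projAlong e (wT f₁ f₂ ε δ c) (tileVA f₁ f₂ δ c R) (tileVB f₁ f₂ δ c R) he
    (inner_comb_e e f₁ f₂ h01 h02 _ _)
    (inner_comb_e e f₁ f₂ h01 h02 _ _) (inner_comb_e e f₁ f₂ h01 h02 _ _),
    norm_wT_sq f₁ f₂ hf₁ hf₂ h12]
  unfold tileVA tileVB
  rw [gram2_comb f₁ f₂ hf₁ hf₂ h12]
  have h2 : Real.sqrt 2 ^ 2 = 2 := Real.sq_sqrt (by norm_num)
  congr 1
  calc (R * (c - δ / 2) * (Real.sqrt 2 * R) - Real.sqrt 2 * R * (R * (c + δ / 2))) ^ 2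
      = Real.sqrt 2 ^ 2 * (R ^ 2 * δ) ^ 2 := by ring
    _ = _ := by rw [h2]

theorem tile_area (he : ‖e‖ = 1) (hf₁ : ‖f₁‖ = 1) (hf₂ : ‖f₂‖ = 1) (h01 : inner ℝ e f₁ = 0)
    (h02 : inner ℝ e f₂ = 0) (h12 : inner ℝ f₁ f₂ = 0) (o : E3) (ε δ c R : ℝ) (hδ : 0 ≤ δ) :
    Real.sqrt (gram2
      (projAlong (nT e f₁ f₂ ε δ c) (o + tileVA f₁ f₂ δ c R) - projAlong (nT e f₁ f₂ ε δ c) o)
      (projAlong (nT e f₁ f₂ ε δ c) (o + tileVB f₁ f₂ δ c R) - projAlong (nT e f₁ f₂ ε δ c) o)) / 2 =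
      Real.sqrt 2 * (R ^ 2 * δ / (2 * Real.sqrt (1 + XT ε δ c))) := by
  rw [tile_gram e f₁ f₂ he hf₁ hf₂ h01 h02 h12]
  have hX := XT_nonneg ε δ c
  rw [Real.sqrt_div (by positivity), Real.sqrt_mul (by norm_num), Real.sqrt_sq (by positivity)]
  have : Real.sqrt (1 + XT ε δ c) ≠ 0 := (Real.sqrt_pos.mpr (by linarith)).ne'
  field_simp

/-- membership in the cylinder over the projected tile triangle -/
theorem tile_mem (he : ‖e‖ = 1) (hf₁ : ‖f₁‖ = 1) (hf₂ : ‖f₂‖ = 1) (h01 : inner ℝ e f₁ = 0)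
    (h02 : inner ℝ e f₂ = 0) (h12 : inner ℝ f₁ f₂ = 0) (o : E3) (ε δ c R x y Z : ℝ)
    (hδ : 0 < δ) (hR : 0 < R)
    (h1 : |y - ε * aT δ c * x - c * (Z - ε * c * x)| ≤ δ / 2 * (Z - ε * c * x))
    (h2 : Z - ε * c * x ≤ R) :
    ∃ b ∈ convexHull ℝ ({projAlong (nT e f₁ f₂ ε δ c) o,
        projAlong (nT e f₁ f₂ ε δ c) (o + tileVA f₁ f₂ δ c R),
        projAlong (nT e f₁ f₂ ε δ c) (o + tileVB f₁ f₂ δ c R)} : Set E3),
      ∃ t : ℝ, o + x • e + y • f₁ + (Real.sqrt 2 * Z) • f₂ =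
        b + t • ((1 / ‖nT e f₁ f₂ ε δ c‖) • nT e f₁ f₂ ε δ c) := by
  set n := nT e f₁ f₂ ε δ c with hn
  have hn0 : n ≠ 0 := nT_ne_zero e f₁ f₂ he hf₁ hf₂ h01 h02 h12 ε δ c
  have hnn : ‖n‖ ≠ 0 := norm_ne_zero_iff.mpr hn0
  set h := Z - ε * c * x with hh
  set Q := y - ε * aT δ c * x with hQ
  obtain ⟨hl, hu⟩ := abs_le.mp h1
  set lA := ((c + δ / 2) * h - Q) / (δ * R) with hlA
  set lB := (Q - (c - δ / 2) * h) / (δ * R) with hlB
  have hδR : 0 < δ * R := mul_pos hδ hR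
  have hlA0 : 0 ≤ lA := div_nonneg (by linarith) hδR.le
  have hlB0 : 0 ≤ lB := div_nonneg (by linarith) hδR.le
  have hsum : lA + lB = h / R := by
    rw [hlA, hlB]; field_simp; ring
  have hsum1 : lA + lB ≤ 1 := by
    rw [hsum, div_le_one hR]; exact h2
  set X₀ : E3 := o + lA • tileVA f₁ f₂ δ c R + lB • tileVB f₁ f₂ δ c R with hX₀
  have hX : o + x • e + y • f₁ + (Real.sqrt 2 * Z) • f₂ = X₀ + x • n := by
    have c1 : lA * (R * (c - δ / 2)) + lB * (R * (c + δ / 2)) = Q := by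
      rw [hlA, hlB]; field_simp; ring
    have c2 : lA * (Real.sqrt 2 * R) + lB * (Real.sqrt 2 * R) = Real.sqrt 2 * h := by
      have : lA * (Real.sqrt 2 * R) + lB * (Real.sqrt 2 * R) = Real.sqrt 2 * R * (lA + lB) := by ring
      rw [this, hsum]; field_simp
    have e1 : lA • tileVA f₁ f₂ δ c R + lB • tileVB f₁ f₂ δ c R = Q • f₁ + (Real.sqrt 2 * h) • f₂ := by
      rw [← c1, ← c2]
      unfold tileVA tileVB
      module
    have e2 : X₀ = o + (lA • tileVA f₁ f₂ δ c R + lB • tileVB f₁ f₂ δ c R) := by rw [hX₀, add_assoc]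
    rw [e2, e1, hn]
    unfold nT wT
    rw [hQ, hh]
    module
  refine ⟨projAlong n X₀, ?_, (inner ℝ X₀ n / ‖n‖ ^ 2 + x) * ‖n‖, ?_⟩
  · have hb : projAlong n X₀ = (1 - lA - lB) • projAlong n o + lA • projAlong n (o + tileVA f₁ f₂ δ c R)
        + lB • projAlong n (o + tileVB f₁ f₂ δ c R) := by
      rw [hX₀]
      simp only [projAlong_add, projAlong_smul]
      module
    rw [hb]
    have hconv := convex_convexHull ℝ ({projAlong n o, projAlong n (o + tileVA f₁ f₂ δ c R),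
      projAlong n (o + tileVB f₁ f₂ δ c R)} : Set E3)
    have := hconv.sum_mem (t := Finset.univ) (w := ![1 - lA - lB, lA, lB])
      (z := ![projAlong n o, projAlong n (o + tileVA f₁ f₂ δ c R), projAlong n (o + tileVB f₁ f₂ δ c R)])
      (by
        intro i _
        fin_cases i
        · simp; linarith
        · simpa using hlA0
        · simpa using hlB0)
      (by simp only [Fin.sum_univ_three]; simp; ring)
      (by
        intro i _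
        apply subset_convexHull
        fin_cases i <;> simp)
    simpa [Fin.sum_univ_three] using this
  · rw [hX]
    have : X₀ = projAlong n X₀ + (inner ℝ X₀ n / ‖n‖ ^ 2) • n := by
      unfold projAlong; abel
    conv_lhs => rw [this]
    rw [smul_smul]
    have h3 : (inner ℝ X₀ n / ‖n‖ ^ 2 + x) * ‖n‖ * (1 / ‖n‖) = inner ℝ X₀ n / ‖n‖ ^ 2 + x := by
      field_simp
    rw [h3]
    module

end frame

end Crest.Agent.S0324Aux
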