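import Mathlib

/-! Common definitions for the cylinder-covering results S0324 - S0329. -/

set_option autoImplicit false
open MeasureTheory
open scoped ENNReal

namespace Crest.Agent.S0324Aux

abbrev E3 := EuclideanSpace ℝ (Fin 3)
abbrev E2 := EuclideanSpace ℝ (Fin 2)

/-- Gram determinant of two vectors: the square of the area of the parallelogram they span. -/
noncomputable def gram2 (a b : E3) : ℝ := ‖a‖ ^ 2 * ‖b‖ ^ 2 - (inner ℝ a b) ^ 2

/-- The closed parallelogram `c + [0,1] a + [0,1] b`. -/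
def pgram (c a b : E3) : Set E3 :=
  {x | ∃ s ∈ Set.Icc (0 : ℝ) 1, ∃ t ∈ Set.Icc (0 : ℝ) 1, x = c + s • a + t • b}

/-- The standard regular tetrahedron of edge length 2. -/
noncomputable def Ktet : Set E3 :=
  convexHull ℝ {!₂[1, 0, 0], !₂[-1, 0, 0], !₂[0, 1, Real.sqrt 2], !₂[0, -1, Real.sqrt 2]}

/-- Projection along a (nonzero) vector `n` onto `n^⊥`. -/
noncomputable def projAlong (n : E3) (y : E3) : E3 := y - (inner ℝ y n / ‖n‖ ^ 2) • n

end Crest.Agent.S0324Aux
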