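import Crest.Agent.S0324Aux.Defs

/-! Padding a finite triangle-cylinder cover: from `m` cylinders of total (formal) base area `S` to
exactly `m + (d + 1)` cylinders of total base area exactly `T`, for any `T ≥ S`. -/

set_option autoImplicit false
open MeasureTheory
open scoped ENNReal

namespace Crest.Agent.S0324Aux

theorem Pad.gram2_special (a : ℝ) (ha : 0 ≤ a) :
    Real.sqrt (gram2 ((!₂[0, a, 0] : E3) - 0) ((!₂[0, 0, 1] : E3) - 0)) = a := by
  have : gram2 ((!₂[0, a, 0] : E3) - 0) ((!₂[0, 0, 1] : E3) - 0) = a ^ 2 := by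
    unfold gram2
    rw [EuclideanSpace.real_norm_sq_eq, EuclideanSpace.real_norm_sq_eq]
    simp [PiLp.inner_apply, Fin.sum_univ_three]
  rw [this, Real.sqrt_sq ha]

theorem Pad.gram2_zero (b : E3) : Real.sqrt (gram2 ((0 : E3) - 0) b) = 0 := by
  unfold gram2
  simp

theorem pad_cover (K : Set E3) (m d : ℕ) (u p q r : Fin m → E3)
    (hu : ∀ i, ‖u i‖ = 1)
    (horth : ∀ i, inner ℝ (p i) (u i) = 0 ∧ inner ℝ (q i) (u i) = 0 ∧ inner ℝ (r i) (u i) = 0)
    (hcov : K ⊆ ⋃ i, {x : E3 | ∃ b ∈ convexHull ℝ {p i, q i, r i}, ∃ t : ℝ, x = b + t • u i})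
    (T : ℝ) (hT : ∑ i, Real.sqrt (gram2 (q i - p i) (r i - p i)) / 2 ≤ T) :
    ∃ (u' p' q' r' : Fin (m + (d + 1)) → E3), (∀ i, ‖u' i‖ = 1) ∧
      (∀ i, inner ℝ (p' i) (u' i) = 0 ∧ inner ℝ (q' i) (u' i) = 0 ∧ inner ℝ (r' i) (u' i) = 0) ∧
      K ⊆ ⋃ i, {x : E3 | ∃ b ∈ convexHull ℝ {p' i, q' i, r' i}, ∃ t : ℝ, x = b + t • u' i} ∧
      ∑ i, Real.sqrt (gram2 (q' i - p' i) (r' i - p' i)) / 2 = T := by
  set S : ℝ := ∑ i, Real.sqrt (gram2 (q i - p i) (r i - p i)) / 2 with hS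
  refine ⟨Fin.append u (fun _ => !₂[1, 0, 0]), Fin.append p (fun _ => 0),
    Fin.append q (Fin.cons !₂[0, 2 * (T - S), 0] (fun _ => 0)),
    Fin.append r (fun _ => !₂[0, 0, 1]), ?_, ?_, ?_, ?_⟩
  · intro i
    refine Fin.addCases (fun j => ?_) (fun j => ?_) i
    · simpa using hu j
    · simp [EuclideanSpace.norm_eq, Fin.sum_univ_three]
  · intro i
    refine Fin.addCases (fun j => ?_) (fun j => ?_) i
    · simpa using horth j
    · simp only [Fin.append_right]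
      refine ⟨by simp, ?_, by simp [PiLp.inner_apply, Fin.sum_univ_three]⟩
      refine Fin.cases ?_ (fun j' => ?_) j
      · simp [PiLp.inner_apply, Fin.sum_univ_three]
      · simp
  · intro x hx
    obtain ⟨i, hi⟩ := Set.mem_iUnion.1 (hcov hx)
    refine Set.mem_iUnion.2 ⟨Fin.castAdd (d + 1) i, ?_⟩
    simpa using hi
  · rw [Fin.sum_univ_add]
    simp only [Fin.append_left, Fin.append_right]
    rw [← hS, Fin.sum_univ_succ]
    simp only [Fin.cons_zero, Fin.cons_succ]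
    rw [Pad.gram2_special _ (by linarith)]
    simp only [Pad.gram2_zero]
    simp

end Crest.Agent.S0324Aux
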