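import Crest.Agent.S0324Aux.Defs

set_option autoImplicit false
open MeasureTheory
open scoped ENNReal

namespace Crest.Agent.S0324Aux

/-- Pinwheel lattice lemma: unit squares centred at the lattice generated by `(1,b)`, `(a,1)`
cover the plane when `0 ≤ ab < 1`. -/
theorem pinwheel (a b : ℝ) (hab : 0 ≤ a * b) (hab1 : a * b < 1) (P₁ P₂ : ℝ) :
    ∃ i j : ℤ, |P₁ - i - a * j| ≤ 1 / 2 ∧ |P₂ - b * i - j| ≤ 1 / 2 := sorry

/-- A traceless operator of the plane has zero diagonal in a suitable orthonormal frame. -/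
theorem exists_frame (A : E2 →L[ℝ] E2) (htr : LinearMap.trace ℝ _ A.toLinearMap = 0) :
    ∃ e e' : E2, ‖e‖ = 1 ∧ ‖e'‖ = 1 ∧ inner ℝ e e' = 0 ∧ inner ℝ (A e) e = 0 ∧
      inner ℝ (A e') e' = 0 ∧
      LinearMap.det A.toLinearMap = - (inner ℝ (A e') e * inner ℝ (A e) e') := sorry

/-- Linear local covering: every point `p` is carried by `I + sA` into the `η`-square (in the
frame) around the image of a lattice point `c` at distance `≤ C η` from `p`. -/
theorem local_cover_linear (A : E2 →L[ℝ] E2) (e e' : E2) (he : ‖e‖ = 1) (he' : ‖e'‖ = 1)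
    (hee' : inner ℝ e e' = 0) (h1 : inner ℝ (A e) e = 0) (h2 : inner ℝ (A e') e' = 0)
    (L γ M₁ : ℝ) (hL : 0 < L) (hγ : 0 < γ) (hM : ‖A‖ ≤ M₁)
    (hdet0 : 0 ≤ inner ℝ (A e') e * inner ℝ (A e) e')
    (hdet1 : L ^ 2 * (inner ℝ (A e') e * inner ℝ (A e) e') ≤ 1 - γ)
    (η : ℝ) (hη : 0 < η) (p : E2) (s : ℝ) (hs : |s| ≤ L) :
    ∃ i j : ℤ, ‖p - ((η * i) • e + (η * j) • e')‖ ≤ (2 * (1 + L * M₁) / γ) * η ∧
      |inner ℝ ((p - ((η * i) • e + (η * j) • e')) + s • A (p - ((η * i) • e + (η * j) • e'))) e|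
        ≤ η / 2 ∧
      |inner ℝ ((p - ((η * i) • e + (η * j) • e')) + s • A (p - ((η * i) • e + (η * j) • e'))) e'|
        ≤ η / 2 := sorry

/-- Counting lattice points near a bounded set by the area of a thickening. -/
theorem lattice_count (e e' : E2) (he : ‖e‖ = 1) (he' : ‖e'‖ = 1) (hee' : inner ℝ e e' = 0)
    (η C : ℝ) (hη : 0 < η) (hC : 0 ≤ C) (S : Set E2) (hS : Bornology.IsBounded S) :
    {ij : ℤ × ℤ | ∃ x ∈ S, ‖x - ((η * ij.1) • e + (η * ij.2) • e')‖ ≤ C * η}.Finite ∧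
    ENNReal.ofReal (η ^ 2) *
      ({ij : ℤ × ℤ | ∃ x ∈ S, ‖x - ((η * ij.1) • e + (η * ij.2) • e')‖ ≤ C * η}.ncard : ℝ≥0∞) ≤
        volume (Metric.cthickening ((C + 1) * η) S) := sorry

/-- Finite measurable partition of a compact set into small pieces with null boundary excess. -/
theorem exists_small_partition (D : Set E2) (hD : IsCompact D) (ρ : ℝ) (hρ : 0 < ρ) :
    ∃ (M : ℕ) (P : Fin M → Set E2) (x : Fin M → E2),
      (∀ m, MeasurableSet (P m)) ∧ Pairwise (fun m m' => Disjoint (P m) (P m')) ∧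
      (⋃ m, P m) = D ∧ (∀ m, x m ∈ D) ∧ (∀ m, P m ⊆ Metric.closedBall (x m) ρ) ∧
      (∀ m, volume (closure (P m)) = volume (P m)) := sorry

end Crest.Agent.S0324Aux
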