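import Crest.Agent.S0324Aux.PinStub

/-! S0326 assembly, part 1: geometry of one tile (frame decomposition, covering of one point). -/

set_option autoImplicit false
open MeasureTheory Metric Set
open scoped ENNReal

namespace Crest.Agent.S0324Aux.SqAsm

open Crest.Agent.S0324Aux

/-- decomposition of a planar vector in an orthonormal frame -/
theorem frame_decomp (e e' : E2) (he : ‖e‖ = 1) (he' : ‖e'‖ = 1) (hee' : inner ℝ e e' = 0)
    (v : E2) : v = inner ℝ v e • e + inner ℝ v e' • e' := by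
  have hon : Orthonormal ℝ ![e, e'] := by
    rw [orthonormal_iff_ite]
    intro i j
    fin_cases i <;> fin_cases j
    · simp [he]
    · simpa using hee'
    · simpa [real_inner_comm] using hee'
    · simp [he']
  obtain ⟨b, hb⟩ := Orthonormal.exists_orthonormalBasis_extension_of_card_eq
    (𝕜 := ℝ) (E := E2) (ι := Fin 2) (by simp) (v := ![e, e']) (s := Set.univ)
    (hon.comp (fun x : (Set.univ : Set (Fin 2)) => (x : Fin 2)) Subtype.val_injective)
  have h0 : b 0 = e := by simpa using hb 0 (Set.mem_univ _)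
  have h1 : b 1 = e' := by simpa using hb 1 (Set.mem_univ _)
  have := b.sum_repr' v
  rw [Fin.sum_univ_two, h0, h1] at this
  rw [real_inner_comm e v, real_inner_comm e' v]
  exact this.symm

/-- a vector with small frame coordinates lies in the centred square -/
theorem mem_square (e e' : E2) (he : ‖e‖ = 1) (he' : ‖e'‖ = 1) (hee' : inner ℝ e e' = 0)
    (σ : ℝ) (hσ : 0 < σ) (v : E2) (h1 : |inner ℝ v e| ≤ σ / 2) (h2 : |inner ℝ v e'| ≤ σ / 2) :
    ∃ x ∈ Set.Icc (0 : ℝ) 1, ∃ y ∈ Set.Icc (0 : ℝ) 1,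
      v = -((1 / 2 : ℝ) • (σ • e) + (1 / 2 : ℝ) • (σ • e')) + x • (σ • e) + y • (σ • e') := by
  rw [abs_le] at h1 h2
  refine ⟨1 / 2 + inner ℝ v e / σ, ⟨?_, ?_⟩, 1 / 2 + inner ℝ v e' / σ, ⟨?_, ?_⟩, ?_⟩
  · have : -(1 / 2) ≤ inner ℝ v e / σ := by
      rw [le_div_iff₀ hσ]; linarith [h1.1]
    linarith
  · have : inner ℝ v e / σ ≤ 1 / 2 := by
      rw [div_le_iff₀ hσ]; linarith [h1.2]
    linarith
  · have : -(1 / 2) ≤ inner ℝ v e' / σ := by
      rw [le_div_iff₀ hσ]; linarith [h2.1]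
    linarith
  · have : inner ℝ v e' / σ ≤ 1 / 2 := by
      rw [div_le_iff₀ hσ]; linarith [h2.2]
    linarith
  · conv_lhs => rw [frame_decomp e e' he he' hee' v]
    have e1 : (1 / 2 + inner ℝ v e / σ) * σ = 1 / 2 * σ + inner ℝ v e := by field_simp
    have e2 : (1 / 2 + inner ℝ v e' / σ) * σ = 1 / 2 * σ + inner ℝ v e' := by field_simp
    simp only [smul_smul, neg_add]
    rw [e1, e2, add_smul, add_smul]
    abel

/-- lattice point -/
noncomputable def lat (e e' : E2) (η : ℝ) (ij : ℤ × ℤ) : E2 :=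
  (η * (ij.1 : ℝ)) • e + (η * (ij.2 : ℝ)) • e'

/-- Covering of one point of the ruled set by a tile attached to a nearby lattice point. -/
theorem point_cover (V : E2 → E2) (A : E2 →L[ℝ] E2) (e e' : E2) (he : ‖e‖ = 1) (he' : ‖e'‖ = 1)
    (hee' : inner ℝ e e' = 0) (h1 : inner ℝ (A e) e = 0) (h2 : inner ℝ (A e') e' = 0)
    (L γ M₁ : ℝ) (hL : 0 < L) (hγ : 0 < γ) (hM : ‖A‖ ≤ M₁)
    (hdet0 : 0 ≤ inner ℝ (A e') e * inner ℝ (A e) e')
    (hdet1 : L ^ 2 * (inner ℝ (A e') e * inner ℝ (A e) e') ≤ 1 - γ)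
    (η : ℝ) (hη : 0 < η) (ω : ℝ) (hω : 0 ≤ ω) (S : Set E2) (hS : Convex ℝ S)
    (hdiff : ∀ y ∈ S, DifferentiableAt ℝ V y) (hbound : ∀ y ∈ S, ‖fderiv ℝ V y - A‖ ≤ ω)
    (p : E2) (hp : closedBall p ((2 * (1 + L * M₁) / γ) * η) ⊆ S) (s : ℝ) (hs : |s| ≤ L) :
    ∃ ij : ℤ × ℤ, ‖p - lat e e' η ij‖ ≤ (2 * (1 + L * M₁) / γ) * η ∧
      ∃ x ∈ Set.Icc (0 : ℝ) 1, ∃ y ∈ Set.Icc (0 : ℝ) 1,
        p + s • V p =
          (lat e e' η ij - ((1 / 2 : ℝ) • ((η * (1 + 2 * L * ω * (2 * (1 + L * M₁) / γ))) • e)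
              + (1 / 2 : ℝ) • ((η * (1 + 2 * L * ω * (2 * (1 + L * M₁) / γ))) • e')))
            + x • ((η * (1 + 2 * L * ω * (2 * (1 + L * M₁) / γ))) • e)
            + y • ((η * (1 + 2 * L * ω * (2 * (1 + L * M₁) / γ))) • e')
            + s • V (lat e e' η ij) := by
  set C₀ : ℝ := 2 * (1 + L * M₁) / γ with hC₀
  have hM0 : 0 ≤ M₁ := le_trans (norm_nonneg _) hM
  have hC₀pos : 0 < C₀ := by rw [hC₀]; positivity
  obtain ⟨i, j, hn, hi1, hi2⟩ := local_cover_linear A e e' he he' hee' h1 h2 L γ M₁ hL hγ hM hdet0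
    hdet1 η hη p s hs
  refine ⟨(i, j), hn, ?_⟩
  set c : E2 := lat e e' η (i, j) with hc
  have hc' : c = (η * (i : ℝ)) • e + (η * (j : ℝ)) • e' := rfl
  rw [← hc'] at hn hi1 hi2
  have hpS : p ∈ S := hp (mem_closedBall_self (by positivity))
  have hcS : c ∈ S := hp (by rw [mem_closedBall, dist_eq_norm, norm_sub_rev]; exact hn)
  have herr : ‖V p - V c - A (p - c)‖ ≤ ω * ‖p - c‖ :=
    hS.norm_image_sub_le_of_norm_fderiv_le' hdiff hbound hcS hpS
  set r : E2 := V p - V c - A (p - c) with hr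
  have herr2 : ‖s • r‖ ≤ L * ω * C₀ * η := by
    rw [norm_smul, Real.norm_eq_abs]
    calc |s| * ‖r‖ ≤ L * (ω * (C₀ * η)) := by
          apply mul_le_mul hs _ (norm_nonneg _) hL.le
          exact herr.trans (mul_le_mul_of_nonneg_left hn hω)
      _ = L * ω * C₀ * η := by ring
  set σ : ℝ := η * (1 + 2 * L * ω * C₀) with hσ
  have hσpos : 0 < σ := by rw [hσ]; positivity
  set v : E2 := (p - c) + s • A (p - c) + s • r with hv
  have hv1 : |inner ℝ v e| ≤ σ / 2 := by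
    rw [hv, inner_add_left]
    have : |inner ℝ (s • r) e| ≤ L * ω * C₀ * η := by
      calc |inner ℝ (s • r) e| ≤ ‖s • r‖ * ‖e‖ := abs_real_inner_le_norm _ _
        _ ≤ L * ω * C₀ * η := by rw [he, mul_one]; exact herr2
    calc |inner ℝ (p - c + s • A (p - c)) e + inner ℝ (s • r) e|
        ≤ |inner ℝ (p - c + s • A (p - c)) e| + |inner ℝ (s • r) e| := abs_add_le _ _
      _ ≤ η / 2 + L * ω * C₀ * η := add_le_add hi1 this
      _ = σ / 2 := by rw [hσ]; ring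
  have hv2 : |inner ℝ v e'| ≤ σ / 2 := by
    rw [hv, inner_add_left]
    have : |inner ℝ (s • r) e'| ≤ L * ω * C₀ * η := by
      calc |inner ℝ (s • r) e'| ≤ ‖s • r‖ * ‖e'‖ := abs_real_inner_le_norm _ _
        _ ≤ L * ω * C₀ * η := by rw [he', mul_one]; exact herr2
    calc |inner ℝ (p - c + s • A (p - c)) e' + inner ℝ (s • r) e'|
        ≤ |inner ℝ (p - c + s • A (p - c)) e'| + |inner ℝ (s • r) e'| := abs_add_le _ _
      _ ≤ η / 2 + L * ω * C₀ * η := add_le_add hi2 this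
      _ = σ / 2 := by rw [hσ]; ring
  obtain ⟨x, hx, y, hy, hxy⟩ := mem_square e e' he he' hee' σ hσpos v hv1 hv2
  refine ⟨x, hx, y, hy, ?_⟩
  have hkey : p + s • V p = c + v + s • V c := by
    rw [hv, hr]
    simp only [smul_sub]
    abel
  rw [hkey, hxy]
  abel

end Crest.Agent.S0324Aux.SqAsm
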