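import Crest.Agent.S0324Aux.SqAsm1

/-! S0326 assembly, part 2: weight function, reindexing, counting, arithmetic. -/

set_option autoImplicit false
open MeasureTheory Metric Set
open scoped ENNReal

namespace Crest.Agent.S0324Aux.SqAsm

open Crest.Agent.S0324Aux

/-- the weight `J(g) = (1 + g₀² + h² g₁²)^(-1/2)` -/
noncomputable def J (h : ℝ) (g : E2) : ℝ := 1 / Real.sqrt (1 + (g 0) ^ 2 + h ^ 2 * (g 1) ^ 2)

theorem J_pos (h : ℝ) (g : E2) : 0 < J h g := by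
  unfold J
  have : 0 < 1 + (g 0) ^ 2 + h ^ 2 * (g 1) ^ 2 := by positivity
  positivity

theorem J_le_one (h : ℝ) (g : E2) : J h g ≤ 1 := by
  unfold J
  have h1 : (1 : ℝ) ≤ 1 + (g 0) ^ 2 + h ^ 2 * (g 1) ^ 2 := by
    have : 0 ≤ (g 0) ^ 2 + h ^ 2 * (g 1) ^ 2 := by positivity
    linarith
  have h2 : (1 : ℝ) ≤ Real.sqrt (1 + (g 0) ^ 2 + h ^ 2 * (g 1) ^ 2) := by
    calc (1 : ℝ) = Real.sqrt 1 := by simp
      _ ≤ _ := Real.sqrt_le_sqrt h1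
  rw [div_le_one (by linarith)]
  exact h2

theorem continuous_J (h : ℝ) : Continuous (J h) := by
  unfold J
  apply Continuous.div continuous_const (by fun_prop)
  intro g
  have : 0 < 1 + (g 0) ^ 2 + h ^ 2 * (g 1) ^ 2 := by positivity
  exact (Real.sqrt_pos.mpr this).ne'

/-- passing from an arbitrary finite index type to `Fin k` -/
theorem reindex {T : Type} [Fintype T] (E : Set (ℝ × E2)) (h bound : ℝ) (c a b g : T → E2)
    (h1 : ∀ i, a i ≠ 0 ∧ ‖b i‖ = ‖a i‖ ∧ inner ℝ (a i) (b i) = 0)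
    (h2 : E ⊆ ⋃ i, {z : ℝ × E2 | ∃ x ∈ Set.Icc (0 : ℝ) 1, ∃ y ∈ Set.Icc (0 : ℝ) 1,
          z.2 = c i + x • a i + y • b i + z.1 • g i})
    (h3 : ∑ i, ‖a i‖ ^ 2 / Real.sqrt (1 + (g i 0) ^ 2 + h ^ 2 * (g i 1) ^ 2) ≤ bound) :
    ∃ (k : ℕ) (c a b g : Fin k → E2),
      (∀ i, a i ≠ 0 ∧ ‖b i‖ = ‖a i‖ ∧ inner ℝ (a i) (b i) = 0) ∧
      E ⊆ ⋃ i, {z : ℝ × E2 | ∃ x ∈ Set.Icc (0 : ℝ) 1, ∃ y ∈ Set.Icc (0 : ℝ) 1,
          z.2 = c i + x • a i + y • b i + z.1 • g i} ∧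
      ∑ i, ‖a i‖ ^ 2 / Real.sqrt (1 + (g i 0) ^ 2 + h ^ 2 * (g i 1) ^ 2) ≤ bound := by
  let eq := Fintype.equivFin T
  refine ⟨Fintype.card T, c ∘ eq.symm, a ∘ eq.symm, b ∘ eq.symm, g ∘ eq.symm,
    fun i => h1 (eq.symm i), ?_, ?_⟩
  · intro z hz
    obtain ⟨i, hi⟩ := Set.mem_iUnion.mp (h2 hz)
    refine Set.mem_iUnion.mpr ⟨eq i, ?_⟩
    simpa using hi
  · have := Equiv.sum_comp eq.symm
      (fun i => ‖a i‖ ^ 2 / Real.sqrt (1 + (g i 0) ^ 2 + h ^ 2 * (g i 1) ^ 2))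
    simp only [Function.comp]
    rw [this]
    exact h3

/-- index set of the tiles attached to a piece -/
def idx (e e' : E2) (η C : ℝ) (P : Set E2) : Set (ℤ × ℤ) :=
  {ij | ∃ x ∈ P, ‖x - lat e e' η ij‖ ≤ C * η}

theorem idx_finite (e e' : E2) (he : ‖e‖ = 1) (he' : ‖e'‖ = 1) (hee' : inner ℝ e e' = 0)
    (η C : ℝ) (hη : 0 < η) (hC : 0 ≤ C) (P : Set E2) (hP : Bornology.IsBounded P) :
    (idx e e' η C P).Finite :=
  (lattice_count e e' he he' hee' η C hη hC P hP).1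

theorem count_bound (e e' : E2) (he : ‖e‖ = 1) (he' : ‖e'‖ = 1) (hee' : inner ℝ e e' = 0)
    (η C ε' : ℝ) (hη : 0 < η) (hC : 0 ≤ C) (hε' : 0 ≤ ε') (P : Set E2)
    (hP : Bornology.IsBounded P) (hfinP : volume P ≠ ⊤)
    (hth : volume (cthickening ((C + 1) * η) P) ≤ volume P + ENNReal.ofReal ε') :
    η ^ 2 * (((idx_finite e e' he he' hee' η C hη hC P hP).toFinset.card : ℕ) : ℝ) ≤
      (volume P).toReal + ε' := by
  have h1 := (lattice_count e e' he he' hee' η C hη hC P hP).2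
  have h2 : ({ij : ℤ × ℤ | ∃ x ∈ P, ‖x - ((η * ij.1) • e + (η * ij.2) • e')‖ ≤ C * η}.ncard) =
      (idx_finite e e' he he' hee' η C hη hC P hP).toFinset.card :=
    Set.ncard_eq_toFinset_card _ _
  rw [h2] at h1
  set n : ℕ := (idx_finite e e' he he' hee' η C hη hC P hP).toFinset.card with hn
  have h3 : ENNReal.ofReal (η ^ 2 * (n : ℝ)) ≤ ENNReal.ofReal ((volume P).toReal + ε') := by
    rw [ENNReal.ofReal_mul (by positivity), ENNReal.ofReal_natCast,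
      ENNReal.ofReal_add ENNReal.toReal_nonneg hε', ENNReal.ofReal_toReal hfinP]
    exact h1.trans hth
  exact (ENNReal.ofReal_le_ofReal_iff (by positivity)).mp h3

/-- the arithmetic of one piece -/
theorem piece_arith (θ ω' ε' j v I : ℝ) (hθ0 : 0 ≤ θ) (hθ1 : θ ≤ 1) (hω0 : 0 ≤ ω') (hω1 : ω' ≤ 1)
    (hε' : 0 ≤ ε') (hj0 : 0 ≤ j) (hj1 : j ≤ 1) (hv : 0 ≤ v) (hI0 : 0 ≤ I) (hIv : I ≤ v)
    (hjI : (j - ω') * v ≤ I) :
    (1 + θ) ^ 2 * ((j + ω') * (v + ε')) ≤ I + 3 * θ * v + 8 * ω' * v + 8 * ε' := by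
  have h1 : (j + ω') * (v + ε') ≤ I + 2 * ω' * v + 2 * ε' := by
    have : (j + ω') * ε' ≤ 2 * ε' := by nlinarith
    nlinarith
  have h2 : (1 + θ) ^ 2 ≤ 1 + 3 * θ := by nlinarith
  have h3 : (1 + θ) ^ 2 ≤ 4 := by nlinarith
  have h4 : 0 ≤ 2 * ω' * v + 2 * ε' := by positivity
  calc (1 + θ) ^ 2 * ((j + ω') * (v + ε')) ≤ (1 + θ) ^ 2 * (I + 2 * ω' * v + 2 * ε') :=
        mul_le_mul_of_nonneg_left h1 (by positivity)
    _ = (1 + θ) ^ 2 * I + (1 + θ) ^ 2 * (2 * ω' * v + 2 * ε') := by ring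
    _ ≤ (1 + 3 * θ) * I + 4 * (2 * ω' * v + 2 * ε') :=
        add_le_add (mul_le_mul_of_nonneg_right h2 hI0) (mul_le_mul_of_nonneg_right h3 h4)
    _ ≤ I + 3 * θ * v + 8 * ω' * v + 8 * ε' := by nlinarith

end Crest.Agent.S0324Aux.SqAsm
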