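import Crest.Agent.S0324Aux.SqAsm2

/-! S0326 assembly, part 3: the main argument. -/

set_option autoImplicit false
open MeasureTheory Metric Set
open scoped ENNReal

namespace Crest.Agent.S0324Aux.SqAsm

open Crest.Agent.S0324Aux

theorem main
    (D : Set E2) (hD : IsCompact D) (V : E2 → E2) (U : Set E2)
    (hU : IsOpen U) (hDU : D ⊆ U) (hV : ContDiffOn ℝ 1 V U) (L h : ℝ) (hL : 0 < L)
    (htr : ∀ p ∈ D, LinearMap.trace ℝ _ (fderiv ℝ V p).toLinearMap = 0)
    (hdet : ∀ p ∈ D, -(L ^ 2)⁻¹ < LinearMap.det (fderiv ℝ V p).toLinearMap ∧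
      LinearMap.det (fderiv ℝ V p).toLinearMap ≤ 0)
    (ε : ℝ) (hε : 0 < ε) :
    ∃ (k : ℕ) (c a b g : Fin k → E2),
      (∀ i, a i ≠ 0 ∧ ‖b i‖ = ‖a i‖ ∧ inner ℝ (a i) (b i) = 0) ∧
      {z : ℝ × E2 | ∃ p ∈ D, abs z.1 ≤ L ∧ z.2 = p + z.1 • V p} ⊆
        ⋃ i, {z : ℝ × E2 | ∃ x ∈ Set.Icc (0 : ℝ) 1, ∃ y ∈ Set.Icc (0 : ℝ) 1,
          z.2 = c i + x • a i + y • b i + z.1 • g i} ∧
      ∑ i, ‖a i‖ ^ 2 / Real.sqrt (1 + (g i 0) ^ 2 + h ^ 2 * (g i 1) ^ 2) ≤
        (∫ p in D, 1 / Real.sqrt (1 + (V p 0) ^ 2 + h ^ 2 * (V p 1) ^ 2)) + ε := by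
  rcases D.eq_empty_or_nonempty with rfl | hne
  · refine ⟨0, Fin.elim0, Fin.elim0, Fin.elim0, Fin.elim0, fun i => i.elim0, ?_, ?_⟩
    · rintro z ⟨p, hp, _⟩
      exact absurd hp (Set.notMem_empty _)
    · simp only [Finset.univ_eq_empty, Finset.sum_empty, Measure.restrict_empty,
        integral_zero_measure, zero_add]
      exact hε.le
  -- analytic set-up
  obtain ⟨r₀, hr₀, hK₀U⟩ := hD.exists_cthickening_subset_open hU hDU
  set K₀ := cthickening r₀ D with hK₀def
  have hK₀ : IsCompact K₀ := hD.cthickening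
  have hDVc : ContinuousOn (fderiv ℝ V) U := hV.continuousOn_fderiv_of_isOpen hU le_rfl
  have hVc : ContinuousOn V U := hV.continuousOn
  have hdiffU : ∀ y ∈ U, DifferentiableAt ℝ V y := fun y hy =>
    (hV.differentiableOn one_ne_zero).differentiableAt (hU.mem_nhds hy)
  obtain ⟨M₁, hM₁⟩ := hD.exists_bound_of_continuousOn (hDVc.mono hDU)
  have hdetc : ContinuousOn (fun x => (fderiv ℝ V x).det) D :=
    ContinuousLinearMap.continuous_det.comp_continuousOn (hDVc.mono hDU)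
  obtain ⟨x₀, hx₀, hmin⟩ := hD.exists_isMinOn hne hdetc
  set d₀ : ℝ := (fderiv ℝ V x₀).det with hd₀def
  have hd₀ : -(L ^ 2)⁻¹ < d₀ := (hdet x₀ hx₀).1
  set γ : ℝ := 1 + L ^ 2 * d₀ with hγdef
  have hγ : 0 < γ := by
    have h1 : L ^ 2 * (-(L ^ 2)⁻¹) < L ^ 2 * d₀ := mul_lt_mul_of_pos_left hd₀ (by positivity)
    have h2 : L ^ 2 * (-(L ^ 2)⁻¹) = -1 := by field_simp
    linarith
  have hγD : ∀ y ∈ D, L ^ 2 * (-(fderiv ℝ V y).det) ≤ 1 - γ := by
    intro y hy
    have h1 : d₀ ≤ (fderiv ℝ V y).det := hmin hy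
    have h2 : L ^ 2 * d₀ ≤ L ^ 2 * (fderiv ℝ V y).det :=
      mul_le_mul_of_nonneg_left h1 (by positivity)
    linarith
  -- constants
  set v : ℝ := (volume D).toReal with hvdef
  have hv0 : 0 ≤ v := ENNReal.toReal_nonneg
  have hDfin : volume D ≠ ⊤ := hD.measure_lt_top.ne
  have hM₁0 : 0 ≤ M₁ := le_trans (norm_nonneg _) (hM₁ x₀ hx₀)
  set C₀ : ℝ := 2 * (1 + L * M₁) / γ with hC₀def
  have hC₀ : 0 < C₀ := by positivity
  set θ : ℝ := min 1 (ε / (9 * (v + 1))) with hθdef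
  have hθ0 : 0 < θ := lt_min one_pos (by positivity)
  have hθ1 : θ ≤ 1 := min_le_left _ _
  have hvv : v / (v + 1) ≤ 1 := by
    rw [div_le_one (by positivity)]; linarith
  have hθv : 3 * θ * v ≤ ε / 3 := by
    have h1 : θ ≤ ε / (9 * (v + 1)) := min_le_right _ _
    calc 3 * θ * v ≤ 3 * (ε / (9 * (v + 1))) * v := by gcongr
      _ = ε / 3 * (v / (v + 1)) := by field_simp; ring
      _ ≤ ε / 3 * 1 := by gcongr
      _ = ε / 3 := mul_one _
  set ω : ℝ := θ / (2 * L * C₀) with hωdef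
  have hω : 0 < ω := by positivity
  have hωθ : 2 * L * ω * C₀ = θ := by rw [hωdef]; field_simp
  set ω' : ℝ := min 1 (ε / (24 * (v + 1))) with hω'def
  have hω'0 : 0 < ω' := lt_min one_pos (by positivity)
  have hω'1 : ω' ≤ 1 := min_le_left _ _
  have hω'v : 8 * ω' * v ≤ ε / 3 := by
    have h1 : ω' ≤ ε / (24 * (v + 1)) := min_le_right _ _
    calc 8 * ω' * v ≤ 8 * (ε / (24 * (v + 1))) * v := by gcongr
      _ = ε / 3 * (v / (v + 1)) := by field_simp; ring
      _ ≤ ε / 3 * 1 := by gcongr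
      _ = ε / 3 := mul_one _
  -- uniform continuity
  obtain ⟨ρ₁, hρ₁, hUC1⟩ := Metric.uniformContinuousOn_iff.mp
    (hK₀.uniformContinuousOn_of_continuous (hDVc.mono hK₀U)) ω hω
  have hJVc : ContinuousOn (fun y => J h (V y)) U := (continuous_J h).comp_continuousOn hVc
  obtain ⟨ρ₂, hρ₂, hUC2⟩ := Metric.uniformContinuousOn_iff.mp
    (hK₀.uniformContinuousOn_of_continuous (hJVc.mono hK₀U)) ω' hω'0
  set ρ : ℝ := min (min ρ₁ ρ₂) r₀ / 4 with hρdef
  have hρ : 0 < ρ := by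
    have : 0 < min (min ρ₁ ρ₂) r₀ := lt_min (lt_min hρ₁ hρ₂) hr₀
    positivity
  have hρ1 : 4 * ρ ≤ ρ₁ := by
    have : min (min ρ₁ ρ₂) r₀ ≤ ρ₁ := (min_le_left _ _).trans (min_le_left _ _)
    rw [hρdef]; linarith
  have hρ2 : 4 * ρ ≤ ρ₂ := by
    have : min (min ρ₁ ρ₂) r₀ ≤ ρ₂ := (min_le_left _ _).trans (min_le_right _ _)
    rw [hρdef]; linarith
  have hρ0 : 4 * ρ ≤ r₀ := by
    have : min (min ρ₁ ρ₂) r₀ ≤ r₀ := min_le_right _ _
    rw [hρdef]; linarith
  obtain ⟨M, P, x, hPm, hPd, hPU, hxD, hPb, hPcl⟩ := exists_small_partition D hD ρ hρ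
  have hPD : ∀ m, P m ⊆ D := fun m => hPU ▸ Set.subset_iUnion P m
  have hbddP : ∀ m, Bornology.IsBounded (P m) := fun m => isBounded_closedBall.subset (hPb m)
  have hPfin : ∀ m, volume (P m) ≠ ⊤ := fun m =>
    ((measure_mono (hPD m)).trans_lt hD.measure_lt_top).ne
  have hballK : ∀ m, closedBall (x m) (2 * ρ) ⊆ K₀ := fun m =>
    (closedBall_subset_cthickening (hxD m) _).trans (cthickening_mono (by linarith) _)
  have hxK : ∀ m, x m ∈ K₀ := fun m => hballK m (mem_closedBall_self (by positivity))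
  choose e e' he he' hee' hA1 hA2 hAdet using
    fun m : Fin M => exists_frame (fderiv ℝ V (x m)) (htr _ (hxD m))
  -- the lattice scale
  set ε' : ℝ := ε / (24 * ((M : ℝ) + 1)) with hε'def
  have hε' : 0 < ε' := by positivity
  have hMε' : 8 * (M : ℝ) * ε' ≤ ε / 3 := by
    have hMM : (M : ℝ) / ((M : ℝ) + 1) ≤ 1 := by
      rw [div_le_one (by positivity)]; linarith
    calc 8 * (M : ℝ) * ε' = ε / 3 * ((M : ℝ) / ((M : ℝ) + 1)) := by
          rw [hε'def]; field_simp; ring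
      _ ≤ ε / 3 * 1 := by gcongr
      _ = ε / 3 := mul_one _
  have hev : ∀ m, ∀ᶠ r in nhds (0 : ℝ),
      volume (cthickening r (P m)) < volume (P m) + ENNReal.ofReal ε' := by
    intro m
    have ht := tendsto_measure_cthickening (μ := (volume : Measure E2)) (s := P m)
      ⟨1, one_pos, ((hbddP m).cthickening).measure_lt_top.ne⟩
    rw [hPcl m] at ht
    exact ht.eventually_lt_const (ENNReal.lt_add_right (hPfin m) (by simpa using hε'))
  obtain ⟨δ₀, hδ₀, hδ⟩ := Metric.eventually_nhds_iff.mp (Filter.eventually_all.mpr hev)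
  set η : ℝ := min (δ₀ / (2 * (C₀ + 1))) (ρ / C₀) with hηdef
  have hη : 0 < η := lt_min (by positivity) (by positivity)
  have hη1 : (C₀ + 1) * η < δ₀ := by
    have h1 : η ≤ δ₀ / (2 * (C₀ + 1)) := min_le_left _ _
    calc (C₀ + 1) * η ≤ (C₀ + 1) * (δ₀ / (2 * (C₀ + 1))) := by gcongr
      _ = δ₀ / 2 := by field_simp
      _ < δ₀ := by linarith
  have hη2 : C₀ * η ≤ ρ := by
    have h1 : η ≤ ρ / C₀ := min_le_right _ _
    calc C₀ * η ≤ C₀ * (ρ / C₀) := by gcongr
      _ = ρ := by field_simp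
  have hth : ∀ m, volume (cthickening ((C₀ + 1) * η) (P m)) ≤
      volume (P m) + ENNReal.ofReal ε' := fun m =>
    (hδ (y := (C₀ + 1) * η) (by
      rw [Real.dist_eq, sub_zero, abs_of_pos (by positivity)]; exact hη1) m).le
  -- the tiles
  set σ : ℝ := η * (1 + 2 * L * ω * C₀) with hσdef
  have hσpos : 0 < σ := by positivity
  have hσθ : σ = η * (1 + θ) := by rw [hσdef, hωθ]
  let F : (m : Fin M) → Finset (ℤ × ℤ) := fun m =>
    (idx_finite (e m) (e' m) (he m) (he' m) (hee' m) η C₀ hη hC₀.le (P m) (hbddP m)).toFinset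
  have hFmem : ∀ m ij, ij ∈ F m ↔ ∃ y ∈ P m, ‖y - lat (e m) (e' m) η ij‖ ≤ C₀ * η := by
    intro m ij
    simp only [F, Set.Finite.mem_toFinset]
    rfl
  refine reindex (T := Σ m : Fin M, ↥(F m)) _ h _
    (fun t => lat (e t.1) (e' t.1) η t.2 -
      ((1 / 2 : ℝ) • (σ • e t.1) + (1 / 2 : ℝ) • (σ • e' t.1)))
    (fun t => σ • e t.1) (fun t => σ • e' t.1) (fun t => V (lat (e t.1) (e' t.1) η t.2))
    ?_ ?_ ?_
  · intro t
    refine ⟨?_, ?_, ?_⟩
    · intro h0
      have : ‖σ • e t.1‖ = 0 := by rw [h0, norm_zero]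
      rw [norm_smul, he, mul_one, Real.norm_eq_abs, abs_of_pos hσpos] at this
      exact hσpos.ne' this
    · rw [norm_smul, norm_smul, he, he']
    · rw [inner_smul_left, inner_smul_right, hee']; simp
  · -- covering
    rintro ⟨s, ξ⟩ ⟨p, hp, hs, hξ⟩
    simp only at hs hξ
    obtain ⟨m, hpm⟩ : ∃ m, p ∈ P m := by
      have : p ∈ ⋃ m, P m := hPU ▸ hp
      exact Set.mem_iUnion.mp this
    have hdm : LinearMap.det (fderiv ℝ V (x m)).toLinearMap =
        -(inner ℝ (fderiv ℝ V (x m) (e' m)) (e m) * inner ℝ (fderiv ℝ V (x m) (e m)) (e' m)) :=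
      hAdet m
    have hdet0 : 0 ≤ inner ℝ (fderiv ℝ V (x m) (e' m)) (e m) *
        inner ℝ (fderiv ℝ V (x m) (e m)) (e' m) := by
      have := (hdet _ (hxD m)).2
      rw [hdm] at this
      linarith
    have hdet1 : L ^ 2 * (inner ℝ (fderiv ℝ V (x m) (e' m)) (e m) *
        inner ℝ (fderiv ℝ V (x m) (e m)) (e' m)) ≤ 1 - γ := by
      have := hγD _ (hxD m)
      have h2 : (fderiv ℝ V (x m)).det = -(inner ℝ (fderiv ℝ V (x m) (e' m)) (e m) *
          inner ℝ (fderiv ℝ V (x m) (e m)) (e' m)) := hdm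
      rw [h2, neg_neg] at this
      exact this
    obtain ⟨ij, hij, X, hX, Y, hY, hXY⟩ := point_cover V (fderiv ℝ V (x m)) (e m) (e' m) (he m)
      (he' m) (hee' m) (hA1 m) (hA2 m) L γ M₁ hL hγ (hM₁ _ (hxD m)) hdet0 hdet1 η hη ω hω.le
      (closedBall (x m) (2 * ρ)) (convex_closedBall _ _)
      (fun y hy => hdiffU y (hK₀U (hballK m hy)))
      (fun y hy => by
        have h1 : dist y (x m) < ρ₁ := by
          have : dist y (x m) ≤ 2 * ρ := hy
          linarith
        have := hUC1 y (hballK m hy) (x m) (hxK m) h1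
        rw [dist_eq_norm] at this
        exact this.le)
      p (by
        intro y hy
        have h1 : dist y p ≤ C₀ * η := hy
        have h2 : dist p (x m) ≤ ρ := hPb m hpm
        have h3 : dist y (x m) ≤ dist y p + dist p (x m) := dist_triangle _ _ _
        show dist y (x m) ≤ 2 * ρ
        linarith) s hs
    have hijF : ij ∈ F m := (hFmem m ij).mpr ⟨p, hpm, hij⟩
    refine Set.mem_iUnion.mpr ⟨⟨m, ⟨ij, hijF⟩⟩, X, hX, Y, hY, ?_⟩
    simp only
    rw [hξ]
    exact hXY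
  · -- cost
    have hInt : IntegrableOn (fun p => J h (V p)) D := (hJVc.mono hDU).integrableOn_compact hD
    have hIntm : ∀ m, IntegrableOn (fun p => J h (V p)) (P m) := fun m => hInt.mono_set (hPD m)
    have hcost : ∀ m, ∑ ij ∈ F m, σ ^ 2 * J h (V (lat (e m) (e' m) η ij)) ≤
        (1 + θ) ^ 2 * ((J h (V (x m)) + ω') * ((volume (P m)).toReal + ε')) := by
      intro m
      have h1 : ∀ ij ∈ F m, σ ^ 2 * J h (V (lat (e m) (e' m) η ij)) ≤
          σ ^ 2 * (J h (V (x m)) + ω') := by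
        intro ij hij
        obtain ⟨y, hy, hyn⟩ := (hFmem m ij).mp hij
        have hd : dist (lat (e m) (e' m) η ij) (x m) ≤ 2 * ρ := by
          have h2 : dist y (x m) ≤ ρ := hPb m hy
          have h3 : dist (lat (e m) (e' m) η ij) y ≤ C₀ * η := by
            rw [dist_comm, dist_eq_norm]; exact hyn
          have h4 := dist_triangle (lat (e m) (e' m) η ij) y (x m)
          linarith
        have h5 := hUC2 _ (hballK m hd) (x m) (hxK m) (by linarith)
        rw [Real.dist_eq, abs_lt] at h5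
        apply mul_le_mul_of_nonneg_left _ (by positivity)
        linarith [h5.2]
      have h2 := Finset.sum_le_card_nsmul (F m) _ _ h1
      have h3 := count_bound (e m) (e' m) (he m) (he' m) (hee' m) η C₀ ε' hη hC₀.le hε'.le (P m)
        (hbddP m) (hPfin m) (hth m)
      have hj : 0 ≤ J h (V (x m)) + ω' := by
        have := J_pos h (V (x m)); linarith
      calc ∑ ij ∈ F m, σ ^ 2 * J h (V (lat (e m) (e' m) η ij))
          ≤ (F m).card • (σ ^ 2 * (J h (V (x m)) + ω')) := h2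
        _ = (1 + θ) ^ 2 * ((J h (V (x m)) + ω') * (η ^ 2 * ((F m).card : ℝ))) := by
            rw [nsmul_eq_mul, hσθ]; ring
        _ ≤ (1 + θ) ^ 2 * ((J h (V (x m)) + ω') * ((volume (P m)).toReal + ε')) := by
            apply mul_le_mul_of_nonneg_left _ (by positivity)
            exact mul_le_mul_of_nonneg_left h3 hj
    have hpiece : ∀ m, (1 + θ) ^ 2 * ((J h (V (x m)) + ω') * ((volume (P m)).toReal + ε')) ≤
        (∫ p in P m, J h (V p)) + 3 * θ * (volume (P m)).toReal + 8 * ω' * (volume (P m)).toReal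
          + 8 * ε' := by
      intro m
      apply piece_arith θ ω' ε' _ _ _ hθ0.le hθ1 hω'0.le hω'1 hε'.le (J_pos _ _).le (J_le_one _ _)
        ENNReal.toReal_nonneg
      · exact setIntegral_nonneg (hPm m) (fun y _ => (J_pos _ _).le)
      · have h1 : ∫ p in P m, J h (V p) ≤ ∫ _p in P m, (1 : ℝ) :=
          setIntegral_mono_on (hIntm m) (integrableOn_const (hPfin m)) (hPm m)
            (fun y _ => J_le_one _ _)
        rw [setIntegral_const, smul_eq_mul, mul_one] at h1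
        exact h1
      · have := setIntegral_ge_of_const_le_real (μ := (volume : Measure E2))
          (f := fun p => J h (V p)) (c := J h (V (x m)) - ω') (hPm m) (hPfin m)
          (fun y hy => by
            have hd : dist y (x m) ≤ ρ := hPb m hy
            have hyK : y ∈ K₀ := hballK m (by
              show dist y (x m) ≤ 2 * ρ
              linarith)
            have h5 := hUC2 y hyK (x m) (hxK m) (by linarith)
            rw [Real.dist_eq, abs_lt] at h5
            linarith [h5.1]) (hIntm m)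
        exact this
    have hsumI : ∑ m, ∫ p in P m, J h (V p) = ∫ p in D, J h (V p) := by
      rw [← hPU]
      exact (integral_iUnion_fintype hPm hPd hIntm).symm
    have hsumv : ∑ m, (volume (P m)).toReal = v := by
      have := measureReal_iUnion_fintype (μ := (volume : Measure E2)) hPd hPm hPfin
      rw [hPU] at this
      exact this.symm
    have hterm : ∀ t : (Σ m : Fin M, ↥(F m)),
        ‖σ • e t.1‖ ^ 2 / Real.sqrt (1 + (V (lat (e t.1) (e' t.1) η t.2) 0) ^ 2 +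
          h ^ 2 * (V (lat (e t.1) (e' t.1) η t.2) 1) ^ 2) =
        σ ^ 2 * J h (V (lat (e t.1) (e' t.1) η t.2)) := by
      intro t
      rw [norm_smul, he, mul_one, Real.norm_eq_abs, sq_abs]
      unfold J
      ring
    rw [Finset.sum_congr rfl (fun t _ => hterm t), Fintype.sum_sigma]
    have hsw : ∀ m, ∑ y : ↥(F m), σ ^ 2 * J h (V (lat (e m) (e' m) η y)) =
        ∑ ij ∈ F m, σ ^ 2 * J h (V (lat (e m) (e' m) η ij)) := fun m =>
      Finset.sum_coe_sort (F m) (fun ij => σ ^ 2 * J h (V (lat (e m) (e' m) η ij)))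
    calc ∑ m, ∑ y : ↥(F m), σ ^ 2 * J h (V (lat (e m) (e' m) η y))
        = ∑ m, ∑ ij ∈ F m, σ ^ 2 * J h (V (lat (e m) (e' m) η ij)) :=
          Finset.sum_congr rfl (fun m _ => hsw m)
      _ ≤ ∑ m, ((∫ p in P m, J h (V p)) + 3 * θ * (volume (P m)).toReal
            + 8 * ω' * (volume (P m)).toReal + 8 * ε') :=
          Finset.sum_le_sum (fun m _ => (hcost m).trans (hpiece m))
      _ = (∫ p in D, J h (V p)) + 3 * θ * v + 8 * ω' * v + 8 * (M : ℝ) * ε' := by
          rw [Finset.sum_add_distrib, Finset.sum_add_distrib, Finset.sum_add_distrib,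
            ← Finset.mul_sum, ← Finset.mul_sum, hsumI, hsumv]
          simp
          ring
      _ ≤ (∫ p in D, J h (V p)) + ε := by linarith
      _ = (∫ p in D, 1 / Real.sqrt (1 + (V p 0) ^ 2 + h ^ 2 * (V p 1) ^ 2)) + ε := rfl

end Crest.Agent.S0324Aux.SqAsm
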